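import Mathlib
import Vale.Agent.P245.Bdl.B2

/-! # P245, Lemma U (helper807): families of functions depending on the output of a channel -/

set_option linter.all false

open MeasureTheory Real Set Filter Topology
open scoped ENNReal ContDiff

namespace Vale.Agent.P245.H807

open Vale.Agent.P245 Vale.Agent.P245.LS Vale.Agent.P245.E1

variable {n m : ℕ}

/-- jointly measurable families with at most exponential growth in the first variable -/
structure GB (F : (Fin m → ℝ) → (Fin n → ℝ) → ℝ) : Prop where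
  meas : Measurable (Function.uncurry F)
  eg : EGP (Function.uncurry F)

/-- integral over the output and over level `s` -/
noncomputable def EE (m : ℕ) (μ : Measure (Fin n → ℝ)) (s : ℝ)
    (F : (Fin m → ℝ) → (Fin n → ℝ) → ℝ) : ℝ := ∫ z, EY μ s (F z) ∂(gsn m)

theorem GB.bm {F : (Fin m → ℝ) → (Fin n → ℝ) → ℝ} (h : GB F) (z : Fin m → ℝ) : BM (F z) := by
  obtain ⟨C, hC0, hC⟩ := h.eg
  exact ⟨h.meas.comp measurable_prodMk_left, C * exp (C * ∑ i, |z i|), fun y => hC (z, y)⟩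

theorem GB.add {F G : (Fin m → ℝ) → (Fin n → ℝ) → ℝ} (hF : GB F) (hG : GB G) :
    GB fun z x => F z x + G z x := ⟨hF.meas.add hG.meas, hF.eg.add hG.eg⟩

theorem GB.mul {F G : (Fin m → ℝ) → (Fin n → ℝ) → ℝ} (hF : GB F) (hG : GB G) :
    GB fun z x => F z x * G z x := ⟨hF.meas.mul hG.meas, hF.eg.mul hG.eg⟩

theorem GB.const (c : ℝ) : GB fun (_ : Fin m → ℝ) (_ : Fin n → ℝ) => c :=
  ⟨measurable_const, EGP.const c⟩

theorem GB.const_mul (c : ℝ) {F : (Fin m → ℝ) → (Fin n → ℝ) → ℝ} (hF : GB F) :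
    GB fun z x => c * F z x := (GB.const c).mul hF

theorem GB.neg {F : (Fin m → ℝ) → (Fin n → ℝ) → ℝ} (hF : GB F) :
    GB fun z x => -F z x := by
  have := hF.const_mul (-1)
  simpa only [neg_mul, one_mul] using this

theorem GB.sub {F G : (Fin m → ℝ) → (Fin n → ℝ) → ℝ} (hF : GB F) (hG : GB G) :
    GB fun z x => F z x - G z x := by
  have := hF.add hG.neg
  simpa only [sub_eq_add_neg] using this

theorem GB.sq {F : (Fin m → ℝ) → (Fin n → ℝ) → ℝ} (hF : GB F) :
    GB fun z x => F z x ^ 2 := by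
  have := hF.mul hF
  simpa only [pow_two] using this

theorem GB.sum {ι : Type*} (s : Finset ι) {F : ι → (Fin m → ℝ) → (Fin n → ℝ) → ℝ}
    (hF : ∀ i ∈ s, GB (F i)) : GB fun z x => ∑ i ∈ s, F i z x :=
  ⟨by
    have := Finset.measurable_sum s fun i hi => (hF i hi).meas
    exact this,
  by
    have := EGP.sum (n := m) (Ω := Fin n → ℝ) s (F := fun i => Function.uncurry (F i))
      fun i hi => (hF i hi).eg
    exact this⟩

/-- functions of the second variable only -/
theorem GB.of_bm {g : (Fin n → ℝ) → ℝ} (hg : BM g) : GB fun (_ : Fin m → ℝ) x => g x :=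
  ⟨hg.1.comp measurable_snd, by
    obtain ⟨C, hC⟩ := hg.2
    exact EGP.of_bdd (G := C) fun q => hC q.2⟩

theorem GB.of_sb {g : (Fin n → ℝ) → ℝ} (hg : SB g) : GB fun (_ : Fin m → ℝ) x => g x :=
  GB.of_bm ⟨hg.measurable, hg.bdd⟩

theorem GB.coord (a : Fin m) : GB fun (z : Fin m → ℝ) (_ : Fin n → ℝ) => z a :=
  ⟨(measurable_pi_apply a).comp measurable_fst, EGP.coord a⟩

theorem GB.div {F G : (Fin m → ℝ) → (Fin n → ℝ) → ℝ} (hF : Measurable (Function.uncurry F))
    (hG : Measurable (Function.uncurry G)) {B : (Fin m → ℝ) → (Fin n → ℝ) → ℝ} (hB : GB B)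
    (h : ∀ z x, |F z x| ≤ B z x * G z x) (hG0 : ∀ z x, 0 < G z x) :
    GB fun z x => F z x / G z x := by
  refine ⟨hF.div hG, ?_⟩
  obtain ⟨C, hC0, hC⟩ := hB.eg
  refine ⟨C, hC0, fun q => ?_⟩
  change |F q.1 q.2 / G q.1 q.2| ≤ _
  rw [abs_div, abs_of_pos (hG0 _ _)]
  refine (div_le_of_le_mul₀ (hG0 _ _).le ?_ ?_)
  · positivity
  · exact (h _ _).trans (mul_le_mul_of_nonneg_right ((le_abs_self _).trans (hC q)) (hG0 _ _).le)

/-- domination -/
theorem GB.mono {F B : (Fin m → ℝ) → (Fin n → ℝ) → ℝ} (hF : Measurable (Function.uncurry F))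
    (hB : GB B) (h : ∀ z x, |F z x| ≤ B z x) : GB F := by
  refine ⟨hF, ?_⟩
  obtain ⟨C, hC0, hC⟩ := hB.eg
  exact ⟨C, hC0, fun q => (h q.1 q.2).trans ((le_abs_self _).trans (hC q))⟩

/-! ### the integral `EE` -/

section ee

variable {μ : Measure (Fin n → ℝ)} [IsProbabilityMeasure μ] {s : ℝ}
  {F G M : (Fin m → ℝ) → (Fin n → ℝ) → ℝ}

theorem GB.integrable (hF : GB F) : Integrable (Function.uncurry F) ((gsn m).prod (lw μ s)) :=
  hF.eg.integrable hF.meas

theorem GB.ee (hF : GB F) :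
    EE m μ s F = ∫ q, Function.uncurry F q ∂((gsn m).prod (lw μ s)) := by
  rw [integral_prod _ hF.integrable]
  unfold EE
  congr 1
  funext z
  exact EY_eq_lw_bm (hF.bm z)

theorem GB.ee_swap (hF : GB F) :
    EE m μ s F = ∫ y, ∫ z, F z y ∂(gsn m) ∂(lw μ s) := by
  rw [hF.ee, integral_prod_symm _ hF.integrable]
  rfl

theorem GB.int_EY (hF : GB F) : Integrable (fun z => EY μ s (F z)) (gsn m) := by
  have h := (hF.integrable (μ := μ) (s := s)).integral_prod_left
  refine h.congr (Eventually.of_forall fun z => ?_)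
  exact (EY_eq_lw_bm (hF.bm z)).symm

theorem EE_add (hF : GB F) (hG : GB G) :
    EE m μ s (fun z x => F z x + G z x) = EE m μ s F + EE m μ s G := by
  rw [(hF.add hG).ee, hF.ee, hG.ee, ← integral_add hF.integrable hG.integrable]
  rfl

theorem EE_const_mul (c : ℝ) (hF : GB F) :
    EE m μ s (fun z x => c * F z x) = c * EE m μ s F := by
  rw [(hF.const_mul c).ee, hF.ee, ← integral_const_mul]
  rfl

theorem EE_neg (hF : GB F) : EE m μ s (fun z x => -F z x) = -EE m μ s F := by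
  rw [hF.neg.ee, hF.ee, ← integral_neg]
  rfl

theorem EE_sub (hF : GB F) (hG : GB G) :
    EE m μ s (fun z x => F z x - G z x) = EE m μ s F - EE m μ s G := by
  rw [(hF.sub hG).ee, hF.ee, hG.ee, ← integral_sub hF.integrable hG.integrable]
  rfl

theorem EE_sum {ι : Type*} (t : Finset ι) {F : ι → (Fin m → ℝ) → (Fin n → ℝ) → ℝ}
    (hF : ∀ i ∈ t, GB (F i)) :
    EE m μ s (fun z x => ∑ i ∈ t, F i z x) = ∑ i ∈ t, EE m μ s (F i) := by
  rw [(GB.sum t hF).ee]
  have h1 : ∀ i ∈ t, EE m μ s (F i) = ∫ q, Function.uncurry (F i) q ∂((gsn m).prod (lw μ s)) :=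
    fun i hi => (hF i hi).ee
  rw [Finset.sum_congr rfl h1, ← integral_finsetSum t fun i hi => (hF i hi).integrable]
  rfl

theorem EE_mono (hF : GB F) (hG : GB G) (h : ∀ z x, F z x ≤ G z x) :
    EE m μ s F ≤ EE m μ s G := by
  rw [hF.ee, hG.ee]
  exact integral_mono hF.integrable hG.integrable fun q => h q.1 q.2

theorem EE_nonneg (hF : GB F) (h : ∀ z x, 0 ≤ F z x) : 0 ≤ EE m μ s F := by
  rw [hF.ee]
  exact integral_nonneg fun q => h q.1 q.2

/-- weighted Cauchy-Schwarz -/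
theorem EE_cs (hM : GB M) (hM0 : ∀ z x, 0 ≤ M z x) (hF : GB F) (hG : GB G) :
    EE m μ s (fun z x => M z x * (F z x * G z x))
      ≤ √(EE m μ s fun z x => M z x * F z x ^ 2) * √(EE m μ s fun z x => M z x * G z x ^ 2) := by
  set A := EE m μ s fun z x => M z x * F z x ^ 2 with hA
  set B := EE m μ s fun z x => M z x * G z x ^ 2 with hB
  set C := EE m μ s fun z x => M z x * (F z x * G z x) with hC
  have hA0 : 0 ≤ A := EE_nonneg (hM.mul hF.sq) fun z x => mul_nonneg (hM0 z x) (sq_nonneg _)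
  have hB0 : 0 ≤ B := EE_nonneg (hM.mul hG.sq) fun z x => mul_nonneg (hM0 z x) (sq_nonneg _)
  have key : ∀ a : ℝ, 0 ≤ A * (a * a) + (-2 * C) * a + B := by
    intro a
    have h0 : 0 ≤ EE m μ s fun z x => M z x * (a * F z x - G z x) ^ 2 :=
      EE_nonneg (hM.mul ((hF.const_mul a).sub hG).sq) fun z x =>
        mul_nonneg (hM0 z x) (sq_nonneg _)
    have e : (fun (z : Fin m → ℝ) (x : Fin n → ℝ) => M z x * (a * F z x - G z x) ^ 2)
        = fun z x => ((a * a) * (M z x * F z x ^ 2) + (-2 * a) * (M z x * (F z x * G z x)))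
          + M z x * G z x ^ 2 := by
      funext z x; ring
    rw [e, EE_add (((hM.mul hF.sq).const_mul _).add ((hM.mul (hF.mul hG)).const_mul _))
      (hM.mul hG.sq), EE_add ((hM.mul hF.sq).const_mul _) ((hM.mul (hF.mul hG)).const_mul _),
      EE_const_mul _ (hM.mul hF.sq), EE_const_mul _ (hM.mul (hF.mul hG))] at h0
    linarith
  have hd := discrim_le_zero key
  have h2 : C ^ 2 ≤ A * B := by
    unfold discrim at hd
    nlinarith
  rw [← sqrt_mul hA0]
  exact (le_abs_self _).trans (abs_le_sqrt h2)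

/-- weighted Cauchy-Schwarz for finite families -/
theorem EE_cs_sum {ι : Type*} (t : Finset ι) {F G : ι → (Fin m → ℝ) → (Fin n → ℝ) → ℝ}
    (hM : GB M) (hM0 : ∀ z x, 0 ≤ M z x) (hF : ∀ i ∈ t, GB (F i)) (hG : ∀ i ∈ t, GB (G i)) :
    EE m μ s (fun z x => M z x * ∑ i ∈ t, F i z x * G i z x)
      ≤ √(EE m μ s fun z x => M z x * ∑ i ∈ t, F i z x ^ 2)
        * √(EE m μ s fun z x => M z x * ∑ i ∈ t, G i z x ^ 2) := by
  have gF2 : GB fun z x => ∑ i ∈ t, F i z x ^ 2 := GB.sum t fun i hi => (hF i hi).sq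
  have gG2 : GB fun z x => ∑ i ∈ t, G i z x ^ 2 := GB.sum t fun i hi => (hG i hi).sq
  have gFG : GB fun z x => ∑ i ∈ t, F i z x * G i z x :=
    GB.sum t fun i hi => (hF i hi).mul (hG i hi)
  set A := EE m μ s fun z x => M z x * ∑ i ∈ t, F i z x ^ 2 with hA
  set B := EE m μ s fun z x => M z x * ∑ i ∈ t, G i z x ^ 2 with hB
  set C := EE m μ s fun z x => M z x * ∑ i ∈ t, F i z x * G i z x with hC
  have hA0 : 0 ≤ A := EE_nonneg (hM.mul gF2) fun z x =>
    mul_nonneg (hM0 z x) (Finset.sum_nonneg fun i _ => sq_nonneg _)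
  have hB0 : 0 ≤ B := EE_nonneg (hM.mul gG2) fun z x =>
    mul_nonneg (hM0 z x) (Finset.sum_nonneg fun i _ => sq_nonneg _)
  have key : ∀ a : ℝ, 0 ≤ A * (a * a) + (-2 * C) * a + B := by
    intro a
    have gd : GB fun z x => ∑ i ∈ t, (a * F i z x - G i z x) ^ 2 :=
      GB.sum t fun i hi => (((hF i hi).const_mul a).sub (hG i hi)).sq
    have h0 : 0 ≤ EE m μ s fun z x => M z x * ∑ i ∈ t, (a * F i z x - G i z x) ^ 2 :=
      EE_nonneg (hM.mul gd) fun z x => mul_nonneg (hM0 z x)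
        (Finset.sum_nonneg fun i _ => sq_nonneg _)
    have e : (fun (z : Fin m → ℝ) (x : Fin n → ℝ) => M z x * ∑ i ∈ t, (a * F i z x - G i z x) ^ 2)
        = fun z x => ((a * a) * (M z x * ∑ i ∈ t, F i z x ^ 2)
          + (-2 * a) * (M z x * ∑ i ∈ t, F i z x * G i z x))
          + M z x * ∑ i ∈ t, G i z x ^ 2 := by
      funext z x
      have e1 : ∑ i ∈ t, (a * F i z x - G i z x) ^ 2 = (a * a) * ∑ i ∈ t, F i z x ^ 2
          + (-2 * a) * ∑ i ∈ t, F i z x * G i z x + ∑ i ∈ t, G i z x ^ 2 := by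
        rw [Finset.mul_sum, Finset.mul_sum, ← Finset.sum_add_distrib, ← Finset.sum_add_distrib]
        exact Finset.sum_congr rfl fun i _ => by ring
      rw [e1]; ring
    rw [e, EE_add (((hM.mul gF2).const_mul _).add ((hM.mul gFG).const_mul _))
      (hM.mul gG2), EE_add ((hM.mul gF2).const_mul _) ((hM.mul gFG).const_mul _),
      EE_const_mul _ (hM.mul gF2), EE_const_mul _ (hM.mul gFG)] at h0
    linarith
  have hd := discrim_le_zero key
  have h2 : C ^ 2 ≤ A * B := by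
    unfold discrim at hd
    nlinarith
  rw [← sqrt_mul hA0]
  exact (le_abs_self _).trans (abs_le_sqrt h2)

end ee

/-! ### operators -/

section ops

variable {μ : Measure (Fin n → ℝ)} [IsProbabilityMeasure μ] {R : ℝ}
  {F : (Fin m → ℝ) → (Fin n → ℝ) → ℝ}

theorem PH_jm' (hF : Measurable (Function.uncurry F)) (u : ℝ) :
    Measurable (Function.uncurry fun z y => PH u (F z) y) := by
  have h0 : Measurable (fun p : ((Fin m → ℝ) × (Fin n → ℝ)) × (Fin n → ℝ) =>
      (p.1.1, p.1.2 + √u • p.2)) := Measurable.prodMk (by fun_prop) (by fun_prop)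
  have h1 : Measurable (fun p : ((Fin m → ℝ) × (Fin n → ℝ)) × (Fin n → ℝ) =>
      F p.1.1 (p.1.2 + √u • p.2)) := hF.comp h0
  exact (h1.stronglyMeasurable.integral_prod_right' (ν := gsn n)).measurable

theorem GB.ph (hF : GB F) (u : ℝ) : GB fun z y => PH u (F z) y := by
  refine ⟨PH_jm' hF.meas u, ?_⟩
  obtain ⟨C, hC0, hC⟩ := hF.eg
  exact ⟨C, hC0, fun q => PH_abs_le (fun y => hC (q.1, y)) u q.2⟩

theorem UL_jm' (h : CSupp μ R) (hF : Measurable (Function.uncurry F)) (s r : ℝ) :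
    Measurable (Function.uncurry fun z y => UL μ s r (F z) y) := by
  have h0 : Measurable (fun p : ((Fin m → ℝ) × (Fin n → ℝ)) × (Fin n → ℝ) =>
      (p.1.1, (1 - s / r) • p.2 + (s / r) • p.1.2)) :=
    Measurable.prodMk (by fun_prop) (by fun_prop)
  have h1 : Measurable (fun p : ((Fin m → ℝ) × (Fin n → ℝ)) × (Fin n → ℝ) =>
      PH (s * (r - s) / r) (F p.1.1) ((1 - s / r) • p.2 + (s / r) • p.1.2)
        * exp (lx p.2 (1 / r, (1 / r) • p.1.2))) := by
    apply ((PH_jm' hF (s * (r - s) / r)).comp h0).mul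
    apply Measurable.exp
    unfold lx
    simp only [Pi.smul_apply, smul_eq_mul]
    fun_prop
  have h2 : Measurable (fun y : Fin n → ℝ => Zo μ (1 / r, (1 / r) • y)) :=
    ((contDiff_Zo h 0).continuous.comp (by fun_prop)).measurable
  exact (h1.stronglyMeasurable.integral_prod_right' (ν := μ)).measurable.div
    (h2.comp measurable_snd)

theorem UL_abs_le (h : CSupp μ R) {s r : ℝ} (hs : 0 < s) (hsr : s ≤ r) {g : (Fin n → ℝ) → ℝ}
    (hg : BM g) {C : ℝ} (hC : ∀ y, |g y| ≤ C) (y : Fin n → ℝ) : |UL μ s r g y| ≤ C := by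
  obtain ⟨h1, h2, h3, h4, h5, h6⟩ := (thK n μ R h).1 s r hs hsr
  have hc : ∀ c : ℝ, BM (fun _ : Fin n → ℝ => c) := fun c => BM.const c
  rw [abs_le]
  constructor
  · have := h5 (fun _ => -C) g (hc _) hg (fun y => (abs_le.1 (hC y)).1) y
    rwa [h4] at this
  · have := h5 g (fun _ => C) hg (hc _) (fun y => (abs_le.1 (hC y)).2) y
    rwa [h4] at this

theorem GB.ul (h : CSupp μ R) {s r : ℝ} (hs : 0 < s) (hsr : s ≤ r) (hF : GB F) :
    GB fun z y => UL μ s r (F z) y := by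
  refine ⟨UL_jm' h hF.meas s r, ?_⟩
  obtain ⟨C, hC0, hC⟩ := hF.eg
  exact ⟨C, hC0, fun q => UL_abs_le h hs hsr (hF.bm q.1) (fun y => hC (q.1, y)) q.2⟩

/-- adjointness for families -/
theorem EE_adj (h : CSupp μ R) {s r : ℝ} (hs : 0 < s) (hsr : s ≤ r) {G : (Fin m → ℝ) → (Fin n → ℝ) → ℝ}
    (hF : GB F) (hG : GB G) :
    EE m μ r (fun z y => UL μ s r (F z) y * G z y)
      = EE m μ s (fun z x => F z x * PH (r - s) (G z) x) := by
  obtain ⟨h1, h2, h3, h4, h5, h6⟩ := (thK n μ R h).1 s r hs hsr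
  unfold EE
  congr 1
  funext z
  exact h6 (F z) (G z) (hF.bm z) (hG.bm z)

end ops

end Vale.Agent.P245.H807
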