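import Mathlib
import Vale.Agent.P245.H807.LU0

/-! # P245, Lemma U (helper807): the field channel `√c φ(X) + G`, pushed to a higher level -/

set_option linter.all false

open MeasureTheory Real Set Filter Topology
open scoped ENNReal ContDiff

namespace Vale.Agent.P245.H807

open Vale.Agent.P245 Vale.Agent.P245.LS Vale.Agent.P245.E1

variable {n m : ℕ}

/-- likelihood of the channel `√c φ(X) + G`, output space `(ℝ^m, gsn m)` -/
noncomputable def lk (c : ℝ) (φ : Fin m → (Fin n → ℝ) → ℝ) (z : Fin m → ℝ) (x : Fin n → ℝ) : ℝ :=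
  exp (√c * ∑ a, z a * φ a x - c / 2 * ∑ a, φ a x ^ 2)

/-- the joint density -/
noncomputable def MF (c : ℝ) (N : (Fin n → ℝ) → ℝ) (φ : Fin m → (Fin n → ℝ) → ℝ)
    (z : Fin m → ℝ) (x : Fin n → ℝ) : ℝ := N x * lk c φ z x

/-- the gradient of `log lk` -/
noncomputable def h0 (c : ℝ) (φ : Fin m → (Fin n → ℝ) → ℝ) (k : Fin n)
    (z : Fin m → ℝ) (x : Fin n → ℝ) : ℝ := √c * ∑ a, (z a - √c * φ a x) * pd (φ a) k x

theorem lk_eq_lr (c : ℝ) (φ : Fin m → (Fin n → ℝ) → ℝ) (z : Fin m → ℝ) (x : Fin n → ℝ) :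
    lk c φ z x = lr c z fun a => φ a x := rfl

theorem lk_pos (c : ℝ) (φ : Fin m → (Fin n → ℝ) → ℝ) (z : Fin m → ℝ) (x : Fin n → ℝ) :
    0 < lk c φ z x := exp_pos _

section basic

variable {c : ℝ} {N : (Fin n → ℝ) → ℝ} {φ : Fin m → (Fin n → ℝ) → ℝ}

theorem field_bdd (hφ : ∀ a, SB (φ a)) : ∃ B, 0 ≤ B ∧ ∀ x a, |φ a x| ≤ B := by
  choose B hB using fun a => (hφ a).bdd
  refine ⟨∑ a, |B a|, Finset.sum_nonneg fun a _ => abs_nonneg _, fun x a => ?_⟩
  exact (hB a x).trans ((le_abs_self _).trans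
    (Finset.single_le_sum (f := fun a => |B a|) (fun a _ => abs_nonneg _) (Finset.mem_univ a)))

theorem GB.lk (hc : 0 ≤ c) (hφ : ∀ a, SB (φ a)) : GB (lk c φ) := by
  constructor
  · have hcont : ∀ a, Continuous (φ a) := fun a => (hφ a).continuous
    have : Continuous (Function.uncurry (H807.lk c φ)) := by
      unfold Function.uncurry H807.lk
      fun_prop
    exact this.measurable
  · obtain ⟨B, hB0, hB⟩ := field_bdd hφ
    refine ⟨1 + √c * B, by positivity, fun q => ?_⟩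
    have h1 : |H807.lk c φ q.1 q.2| ≤ exp (√c * B * ∑ i, |q.1 i|) := by
      rw [abs_of_pos (lk_pos _ _ _ _)]
      exact lr_le hc q.1 fun i => hB q.2 i
    have hS : 0 ≤ ∑ i, |q.1 i| := Finset.sum_nonneg fun i _ => abs_nonneg _
    refine h1.trans ?_
    have h2 : exp (√c * B * ∑ i, |q.1 i|) ≤ exp ((1 + √c * B) * ∑ i, |q.1 i|) := by
      apply exp_le_exp.2
      apply mul_le_mul_of_nonneg_right _ hS
      linarith
    have h3 : 1 ≤ 1 + √c * B := by
      have : 0 ≤ √c * B := by positivity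
      linarith
    exact h2.trans (le_mul_of_one_le_left (exp_pos _).le h3)

theorem GB.mf (hN : SB N) (hc : 0 ≤ c) (hφ : ∀ a, SB (φ a)) : GB (MF c N φ) :=
  (GB.of_sb hN).mul (GB.lk hc hφ)

theorem GB.h0 (hφ : ∀ a, SB (φ a)) (k : Fin n) : GB (h0 c φ k) := by
  unfold H807.h0
  exact (GB.sum Finset.univ fun a _ => ((GB.coord a).sub
    ((GB.of_sb (hφ a)).const_mul _)).mul (GB.of_sb ((hφ a).pd k))).const_mul _

theorem lk_expo_sb (hφ : ∀ a, SB (φ a)) (z : Fin m → ℝ) :
    SB fun x => √c * ∑ a, z a * φ a x - c / 2 * ∑ a, φ a x ^ 2 :=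
  (((SB.sum _ fun i _ => (hφ i).const_mul (z i))).const_mul _).sub
    ((SB.sum _ fun i _ => (hφ i).pow 2).const_mul _)

theorem lk_Pos (hφ : ∀ a, SB (φ a)) (z : Fin m → ℝ) : Pos (lk c φ z) :=
  (lk_expo_sb hφ z).exp_pos

theorem MF_Pos (hN : Pos N) (hφ : ∀ a, SB (φ a)) (z : Fin m → ℝ) : Pos (MF c N φ z) :=
  hN.mul (lk_Pos hφ z)

theorem h0_sb (hφ : ∀ a, SB (φ a)) (k : Fin n) (z : Fin m → ℝ) : SB (h0 c φ k z) := by
  unfold h0
  exact (SB.sum _ fun a _ => ((SB.const (z a)).sub ((hφ a).const_mul _)).mul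
    ((hφ a).pd k)).const_mul _

theorem pd_lk (hc : 0 ≤ c) (hφ : ∀ a, SB (φ a)) (z : Fin m → ℝ) (k : Fin n) (y : Fin n → ℝ) :
    pd (lk c φ z) k y = lk c φ z y * h0 c φ k z y := by
  set E : (Fin n → ℝ) → ℝ := fun y => √c * ∑ i, z i * φ i y - c / 2 * ∑ i, φ i y ^ 2
    with hE
  have hEsb : SB E := lk_expo_sb hφ z
  have hv : ∀ j, HasFDerivAt (φ j) (fderiv ℝ (φ j) y) y := fun j =>
    ((hφ j).differentiable y).hasFDerivAt
  have hpdE : pd E k y = √c * ∑ j, (z j - √c * φ j y) * pd (φ j) k y := by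
    have h1 : HasFDerivAt E (√c • ∑ j, z j • fderiv ℝ (φ j) y
        - (c / 2) • ∑ j, (2 • φ j y ^ (2 - 1)) • fderiv ℝ (φ j) y) y := by
      refine HasFDerivAt.sub ?_ ?_
      · exact (HasFDerivAt.fun_sum fun j _ => (hv j).const_mul (z j)).const_mul _
      · exact (HasFDerivAt.fun_sum fun j _ => (hv j).pow 2).const_mul _
    unfold pd
    rw [h1.fderiv]
    simp only [_root_.sub_apply, _root_.smul_apply, _root_.sum_apply, smul_eq_mul]
    rw [Finset.mul_sum, Finset.mul_sum, Finset.mul_sum, ← Finset.sum_sub_distrib]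
    apply Finset.sum_congr rfl
    intro j _
    have h3 : √c * √c = c := mul_self_sqrt hc
    norm_num
    linear_combination (φ j y * (fderiv ℝ (φ j) y) (Pi.single k 1)) * h3
  have e1 : pd (fun y => exp (E y)) k = fun y => exp (E y) * pd E k y :=
    LS.pd_comp (φ' := Real.exp) hEsb.differentiable (fun y => Real.hasDerivAt_exp _) k
  have e2 := congrFun e1 y
  change pd (fun y => exp (E y)) k y = _
  rw [e2, hpdE]
  rfl

theorem pd_MF (hN : Pos N) (hc : 0 ≤ c) (hφ : ∀ a, SB (φ a)) (z : Fin m → ℝ) (k : Fin n)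
    (y : Fin n → ℝ) :
    pd (MF c N φ z) k y = MF c N φ z y * (sN N k y + h0 c φ k z y) := by
  have e2 := congrFun (LS.pd_mul hN.sb.differentiable (lk_Pos (c := c) hφ z).sb.differentiable k) y
  change pd (fun y => N y * lk c φ z y) k y = _
  rw [e2, pd_lk hc hφ]
  unfold MF sN
  have := (hN.pos y).ne'
  field_simp
  ring

end basic

/-! ### Fubini for the kernels -/

section fub

variable {μ : Measure (Fin n → ℝ)} [IsProbabilityMeasure μ] {R : ℝ}
  {F : (Fin m → ℝ) → (Fin n → ℝ) → ℝ}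

theorem GB.int_z (hF : GB F) (x : Fin n → ℝ) : Integrable (fun z => F z x) (gsn m) := by
  obtain ⟨C, hC0, hC⟩ := hF.eg
  have hm : Measurable fun z => F z x := hF.meas.comp (measurable_id.prodMk measurable_const)
  refine ((integrable_exp_abs (n := m) C).const_mul C).mono' hm.aestronglyMeasurable
    (Eventually.of_forall fun z => ?_)
  rw [norm_eq_abs]
  exact hC (z, x)

/-- average over the output -/
noncomputable def az (m : ℕ) (F : (Fin m → ℝ) → (Fin n → ℝ) → ℝ) (x : Fin n → ℝ) : ℝ :=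
  ∫ z, F z x ∂(gsn m)

theorem GB.az_bm (hF : GB F) : BM (az m F) := by
  constructor
  · have : StronglyMeasurable fun x : Fin n → ℝ => ∫ z, F z x ∂(gsn m) := by
      have h1 : Measurable fun p : (Fin n → ℝ) × (Fin m → ℝ) => F p.2 p.1 :=
        hF.meas.comp measurable_swap
      exact h1.stronglyMeasurable.integral_prod_right' (ν := gsn m)
    exact this.measurable
  · obtain ⟨C, hC0, hC⟩ := hF.eg
    refine ⟨∫ z : Fin m → ℝ, C * exp (C * ∑ i, |z i|) ∂(gsn m), fun x => ?_⟩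
    rw [← norm_eq_abs]
    exact norm_integral_le_of_norm_le ((integrable_exp_abs (n := m) C).const_mul C)
      (Eventually.of_forall fun z => hC (z, x))

theorem PH_int (hF : GB F) (u : ℝ) (y : Fin n → ℝ) :
    ∫ z, PH u (F z) y ∂(gsn m) = PH u (az m F) y := by
  unfold PH az
  have h0 : Measurable (fun p : (Fin m → ℝ) × (Fin n → ℝ) => (p.1, y + √u • p.2)) :=
    Measurable.prodMk (by fun_prop) (by fun_prop)
  have hm : Measurable (Function.uncurry fun (z : Fin m → ℝ) (w : Fin n → ℝ) =>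
      F z (y + √u • w)) := hF.meas.comp h0
  have he : EGP (Function.uncurry fun (z : Fin m → ℝ) (w : Fin n → ℝ) => F z (y + √u • w)) := by
    obtain ⟨C, hC0, hC⟩ := hF.eg
    exact ⟨C, hC0, fun q => hC (q.1, y + √u • q.2)⟩
  exact integral_integral_swap (he.integrable (P := gsn n) hm)

theorem UL_int (h : CSupp μ R) (hF : GB F) (s r : ℝ) (y : Fin n → ℝ) :
    ∫ z, UL μ s r (F z) y ∂(gsn m) = UL μ s r (az m F) y := by
  obtain ⟨C, hC0, hC⟩ := hF.eg
  unfold UL Mf Zf
  rw [integral_div]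
  congr 1
  have hadm := h.adm_exp_lx (1 / r, (1 / r) • y)
  obtain ⟨E, hE0, hE⟩ := hadm.bdd
  have h0 : Measurable (fun p : (Fin m → ℝ) × (Fin n → ℝ) =>
      (p.1, (1 - s / r) • p.2 + (s / r) • y)) :=
    Measurable.prodMk (by fun_prop) (by (clear * -; fun_prop))
  have hm : Measurable (Function.uncurry fun (z : Fin m → ℝ) (x : Fin n → ℝ) =>
      PH (s * (r - s) / r) (F z) ((1 - s / r) • x + (s / r) • y)
        * exp (lx x (1 / r, (1 / r) • y))) :=
    ((PH_jm' hF.meas (s * (r - s) / r)).comp h0).mul (hadm.meas.comp measurable_snd)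
  have hint : Integrable (Function.uncurry fun (z : Fin m → ℝ) (x : Fin n → ℝ) =>
      PH (s * (r - s) / r) (F z) ((1 - s / r) • x + (s / r) • y)
        * exp (lx x (1 / r, (1 / r) • y))) ((gsn m).prod μ) := by
    have h2 : Integrable (fun q : (Fin m → ℝ) × (Fin n → ℝ) =>
        C * exp (C * ∑ i, |q.1 i|) * E) ((gsn m).prod μ) :=
      ((((integrable_exp_abs (n := m) C).const_mul C).comp_fst μ)).mul_const E
    refine h2.mono' hm.aestronglyMeasurable ?_
    have hae : ∀ᵐ q ∂((gsn m).prod μ), |exp (lx q.2 (1 / r, (1 / r) • y))| ≤ E :=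
      Measure.quasiMeasurePreserving_snd.ae hE
    filter_upwards [hae] with q hq
    rw [norm_eq_abs]
    exact abs_mul_le_of (PH_abs_le (fun y' => hC (q.1, y')) _ _) hq
  rw [integral_integral_swap hint]
  congr 1
  funext x
  rw [integral_mul_const, PH_int hF]

end fub

end Vale.Agent.P245.H807

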