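import Mathlib
import Vale.Agent.P245.H807.LU1

/-! # P245, Lemma U (helper807): the pushed channel and `E[h_t | Y] = 0` -/

set_option linter.all false

open MeasureTheory Real Set Filter Topology
open scoped ENNReal ContDiff

namespace Vale.Agent.P245.H807

open Vale.Agent.P245 Vale.Agent.P245.LS Vale.Agent.P245.E1

variable {n m : ℕ}

/-! ### Gaussian averages over the output -/

section gauss

variable {c : ℝ} {N : (Fin n → ℝ) → ℝ} {φ : Fin m → (Fin n → ℝ) → ℝ}

theorem az_aff (hc : 0 ≤ c) (x : Fin n → ℝ) (A : ℝ) (w : Fin m → ℝ) :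
    ∫ z, lk c φ z x * (A + √c * ∑ a, (z a - √c * φ a x) * w a) ∂(gsn m) = A := by
  have h1 := integral_lr hc (fun a => φ a x)
    (fun z : Fin m → ℝ => A + √c * ∑ a, (z a - √c * φ a x) * w a)
  refine h1.trans ?_
  have e : ∀ z : Fin m → ℝ, A + √c * ∑ a, ((fun i => z i + √c * φ i x) a - √c * φ a x) * w a
      = A + ∑ a, z a * (√c * w a) := by
    intro z
    congr 1
    rw [Finset.mul_sum]
    apply Finset.sum_congr rfl; intro a _; ring
  simp_rw [e]
  have i1 : ∀ j : Fin m, Integrable (fun z : Fin m → ℝ => z j * (√c * w j)) (gsn m) := fun j =>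
    ((EG1.coord (n := m) j).integrable
      (continuous_apply j).aestronglyMeasurable).mul_const _
  rw [integral_add (integrable_const _) (integrable_finsetSum _ fun j _ => i1 j),
    integral_finsetSum _ fun j _ => i1 j]
  simp_rw [integral_mul_const, gauss_mean]
  simp only [integral_const, probReal_univ, smul_eq_mul, one_mul, zero_mul,
    Finset.sum_const_zero, add_zero]

theorem az_sq (hc : 0 ≤ c) (x : Fin n → ℝ) (w : Fin m → ℝ) :
    ∫ z, lk c φ z x * (√c * ∑ a, (z a - √c * φ a x) * w a) ^ 2 ∂(gsn m)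
      = c * ∑ a, w a ^ 2 := by
  have h1 := integral_lr hc (fun a => φ a x)
    (fun z : Fin m → ℝ => (√c * ∑ a, (z a - √c * φ a x) * w a) ^ 2)
  refine h1.trans ?_
  have e : ∀ z : Fin m → ℝ, (√c * ∑ a, ((fun i => z i + √c * φ i x) a - √c * φ a x) * w a) ^ 2
      = (0 + ∑ a, z a * (√c * w a)) ^ 2 := by
    intro z
    congr 1
    rw [Finset.mul_sum, zero_add]
    apply Finset.sum_congr rfl; intro a _; ring
  simp_rw [e]
  rw [gauss_affine_sq, Finset.mul_sum]
  have e2 : ∀ a, (√c * w a) ^ 2 = c * w a ^ 2 := fun a => by rw [mul_pow, sq_sqrt hc]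
  simp_rw [e2]
  ring

theorem az_one (hc : 0 ≤ c) (x : Fin n → ℝ) : ∫ z, lk c φ z x ∂(gsn m) = 1 :=
  integral_lr_one hc (fun a => φ a x)

theorem az_MF (hc : 0 ≤ c) : az m (MF c N φ) = N := by
  funext x
  unfold az MF
  rw [integral_const_mul, az_one hc, mul_one]

theorem az_MF_mul (hc : 0 ≤ c) (g : (Fin n → ℝ) → ℝ) :
    az m (fun z x => MF c N φ z x * g x) = fun x => N x * g x := by
  funext x
  have : az m (MF c N φ) x = N x := congrFun (az_MF hc) x
  unfold az at this ⊢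
  rw [integral_mul_const, this]

theorem az_pdMF (hN : Pos N) (hc : 0 ≤ c) (hφ : ∀ a, SB (φ a)) (k : Fin n) :
    az m (fun z => pd (MF c N φ z) k) = pd N k := by
  funext x
  have e : ∀ z : Fin m → ℝ, pd (MF c N φ z) k x = N x * (lk c φ z x *
      (sN N k x + √c * ∑ a, (z a - √c * φ a x) * pd (φ a) k x)) := by
    intro z
    rw [pd_MF hN hc hφ]
    unfold MF h0
    ring
  unfold az
  simp_rw [e]
  rw [integral_const_mul, az_aff hc]
  unfold sN
  have := (hN.pos x).ne'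
  field_simp

end gauss

/-! ### the pushed channel -/

section push

variable {μ : Measure (Fin n → ℝ)} [IsProbabilityMeasure μ] {R : ℝ}
  {c s r : ℝ} {N : (Fin n → ℝ) → ℝ} {φ : Fin m → (Fin n → ℝ) → ℝ}

theorem UL_dom (h : CSupp μ R) (hs : 0 < s) (hsr : s ≤ r) {f g : (Fin n → ℝ) → ℝ}
    (hf : BM f) (hg : BM g) {B : ℝ} (hfg : ∀ x, |f x| ≤ B * g x) (y : Fin n → ℝ) :
    |UL μ s r f y| ≤ B * UL μ s r g y := by
  obtain ⟨h1, h2, h3, h4, h5, h6⟩ := (thK n μ R h).1 s r hs hsr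
  have hBg : BM fun x => B * g x := by
    have := (BM.const (n := n) B).mul hg
    exact this
  have hBg' : BM fun x => (-B) * g x := by
    have := (BM.const (n := n) (-B)).mul hg
    exact this
  rw [abs_le]
  constructor
  · have := h5 (fun x => (-B) * g x) f hBg' hf (fun x => by
      have := (abs_le.1 (hfg x)).1
      linarith) y
    rw [h3 (-B) g hg] at this
    linarith
  · have := h5 f (fun x => B * g x) hf hBg (fun x => (abs_le.1 (hfg x)).2) y
    rw [h3 B g hg] at this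
    exact this

theorem GB.pdMF (hN : Pos N) (hc : 0 ≤ c) (hφ : ∀ a, SB (φ a)) (k : Fin n) :
    GB (m := m) fun z => pd (MF c N φ z) k := by
  have hq : SB (sN N k) := hN.div (hN.sb.pd k)
  have h1 : GB fun (z : Fin m → ℝ) (y : Fin n → ℝ) =>
      MF c N φ z y * (sN N k y + H807.h0 c φ k z y) :=
    (GB.mf hN.sb hc hφ).mul ((GB.of_sb hq).add (GB.h0 hφ k))
  have e : (fun z : Fin m → ℝ => pd (MF c N φ z) k)
      = fun z y => MF c N φ z y * (sN N k y + H807.h0 c φ k z y) := by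
    funext z y; exact pd_MF hN hc hφ z k y
  rw [e]; exact h1

theorem UL_Pos (h : CSupp μ R) (hs : 0 < s) (hsr : s ≤ r) (hN : Pos N) : Pos (UL μ s r N) :=
  (((thR' n μ R h).2.2 s r hs hsr).2 N hN).1

/-- quotient of an `UL` image by the `UL` image of the density -/
theorem GB.ulq (h : CSupp μ R) (hN : Pos N) (hc : 0 ≤ c) (hφ : ∀ a, SB (φ a)) (hs : 0 < s)
    (hsr : s ≤ r) {F : (Fin m → ℝ) → (Fin n → ℝ) → ℝ} (hF : GB F) :
    GB fun z y => UL μ s r (fun x => MF c N φ z x * F z x) y / UL μ s r (MF c N φ z) y := by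
  have hM := GB.mf hN.sb hc hφ
  have h1 := GB.ul h hs hsr (hM.mul hF)
  have h2 := GB.ul h hs hsr hM
  obtain ⟨C, hC0, hC⟩ := hF.eg
  have hB : GB fun (z : Fin m → ℝ) (_ : Fin n → ℝ) => C * exp (C * ∑ i, |z i|) := by
    refine ⟨by unfold Function.uncurry; fun_prop, C, hC0, fun q => ?_⟩
    change |C * exp (C * ∑ i, |q.1 i|)| ≤ _
    rw [abs_of_nonneg (by positivity)]
  refine GB.div h1.meas h2.meas hB (fun z y => ?_) fun z y =>
    (UL_Pos h hs hsr (MF_Pos hN hφ z)).pos y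
  refine UL_dom h hs hsr ((hM.mul hF).bm z) (hM.bm z) (fun x => ?_) y
  rw [abs_mul, abs_of_pos ((MF_Pos hN hφ z).pos x), mul_comm]
  exact mul_le_mul_of_nonneg_right (hC (z, x)) ((MF_Pos hN hφ z).pos x).le

theorem GB.us (h : CSupp μ R) (hN : Pos N) (hc : 0 ≤ c) (hφ : ∀ a, SB (φ a)) (hs : 0 < s)
    (hsr : s ≤ r) (k : Fin n) : GB fun z y => E1.us μ s r (MF c N φ z) k y := by
  have hq : SB (sN N k) := hN.div (hN.sb.pd k)
  have h1 := GB.ulq (m := m) (μ := μ) h hN hc hφ hs hsr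
    (((GB.of_sb hq).add (GB.h0 (c := c) hφ k)))
  have e : (fun (z : Fin m → ℝ) (y : Fin n → ℝ) => E1.us μ s r (MF c N φ z) k y)
      = fun z y => UL μ s r (fun x => MF c N φ z x * (sN N k x + H807.h0 c φ k z x)) y
        / UL μ s r (MF c N φ z) y := by
    funext z y
    unfold E1.us
    have : pd (MF c N φ z) k = fun x => MF c N φ z x * (sN N k x + H807.h0 c φ k z x) := by
      funext x; exact pd_MF hN hc hφ z k x
    rw [this]
  rw [e]; exact h1

theorem GB.dx (h : CSupp μ R) (hN : Pos N) (hc : 0 ≤ c) (hφ : ∀ a, SB (φ a)) (hs : 0 < s)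
    (hsr : s ≤ r) (k : Fin n) : GB fun z y => E1.dx μ s r (MF c N φ z) k y := by
  have hr : 0 < r := hs.trans_le hsr
  have hX := (thR' n μ R h).1
  unfold E1.dx
  exact (GB.ulq (m := m) (μ := μ) h hN hc hφ hs hsr (GB.of_sb (hX s k hs))).sub
    (GB.of_sb (hX r k hr))

/-- the score identity, solved for the score of the pushed density -/
theorem sN_UL (h : CSupp μ R) (hN : Pos N) (hs : 0 < s) (hsr : s ≤ r) (k : Fin n)
    (y : Fin n → ℝ) :
    sN (UL μ s r N) k y = (E1.dx μ s r N k y + s * E1.us μ s r N k y) / r := by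
  have hr : 0 < r := hs.trans_le hsr
  have h1 := (((thR' n μ R h).2.2 s r hs hsr).2 N hN).2.2 k y
  unfold mm at h1
  rw [eq_div_iff hr.ne']
  linarith

theorem GB.sNU (h : CSupp μ R) (hN : Pos N) (hc : 0 ≤ c) (hφ : ∀ a, SB (φ a)) (hs : 0 < s)
    (hsr : s ≤ r) (k : Fin n) : GB fun z y => sN (UL μ s r (MF c N φ z)) k y := by
  have e : (fun (z : Fin m → ℝ) (y : Fin n → ℝ) => sN (UL μ s r (MF c N φ z)) k y)
      = fun z y => (1 / r) * (E1.dx μ s r (MF c N φ z) k y
        + s * E1.us μ s r (MF c N φ z) k y) := by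
    funext z y
    rw [sN_UL h (MF_Pos hN hφ z) hs hsr]
    ring
  rw [e]
  exact ((GB.dx h hN hc hφ hs hsr k).add ((GB.us h hN hc hφ hs hsr k).const_mul _)).const_mul _

/-- `h_t = D_y log` of the pushed likelihood -/
noncomputable def ht (μ : Measure (Fin n → ℝ)) (s r c : ℝ) (N : (Fin n → ℝ) → ℝ)
    (φ : Fin m → (Fin n → ℝ) → ℝ) (k : Fin n) (z : Fin m → ℝ) (y : Fin n → ℝ) : ℝ :=
  sN (UL μ s r (MF c N φ z)) k y - sN (UL μ s r N) k y

theorem GB.ht (h : CSupp μ R) (hN : Pos N) (hc : 0 ≤ c) (hφ : ∀ a, SB (φ a)) (hs : 0 < s)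
    (hsr : s ≤ r) (k : Fin n) : GB (H807.ht μ s r c N φ k) := by
  have hU := UL_Pos (μ := μ) h hs hsr hN
  have hq : SB (sN (UL μ s r N) k) := hU.div (hU.sb.pd k)
  unfold H807.ht
  exact (GB.sNU h hN hc hφ hs hsr k).sub (GB.of_sb hq)

theorem ht_sb (h : CSupp μ R) (hN : Pos N) (hφ : ∀ a, SB (φ a)) (hs : 0 < s)
    (hsr : s ≤ r) (k : Fin n) (z : Fin m → ℝ) : SB (ht μ s r c N φ k z) := by
  have hU := UL_Pos (μ := μ) h hs hsr hN
  have hU' := UL_Pos (μ := μ) h hs hsr (MF_Pos (c := c) hN hφ z)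
  exact (hU'.div (hU'.sb.pd k)).sub (hU.div (hU.sb.pd k))

theorem GB.mm (h : CSupp μ R) (hN : Pos N) (hc : 0 ≤ c) (hφ : ∀ a, SB (φ a)) (hs : 0 < s)
    (hsr : s ≤ r) (k : Fin n) : GB fun z y => E1.mm μ s r (MF c N φ z) k y := by
  unfold E1.mm
  exact (GB.us h hN hc hφ hs hsr k).sub (GB.sNU h hN hc hφ hs hsr k)

/-- `U · sN U`, written with the kernel -/
theorem U_mul_sN (h : CSupp μ R) (hN : Pos N) (hs : 0 < s) (hsr : s ≤ r) (k : Fin n)
    (y : Fin n → ℝ) :
    UL μ s r N y * sN (UL μ s r N) k y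
      = (1 / r) * (UL μ s r (fun x => N x * XB μ s k x) y - UL μ s r N y * XB μ r k y
        + s * UL μ s r (pd N k) y) := by
  have hU := UL_Pos (μ := μ) h hs hsr hN
  have hne := (hU.pos y).ne'
  have hr : r ≠ 0 := (hs.trans_le hsr).ne'
  rw [sN_UL h hN hs hsr]
  unfold E1.dx E1.us
  field_simp

/-- `E[h_t | Y_r = y] = 0` -/
theorem int_ht (h : CSupp μ R) (hN : Pos N) (hc : 0 ≤ c) (hφ : ∀ a, SB (φ a)) (hs : 0 < s)
    (hsr : s ≤ r) (k : Fin n) (y : Fin n → ℝ) :
    ∫ z, UL μ s r (MF c N φ z) y * ht μ s r c N φ k z y ∂(gsn m) = 0 := by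
  have hX := (thR' n μ R h).1
  have hM := GB.mf hN.sb hc hφ
  have hMX : GB fun (z : Fin m → ℝ) (x : Fin n → ℝ) => MF c N φ z x * XB μ s k x :=
    hM.mul (GB.of_sb (hX s k hs))
  have hP := GB.pdMF hN hc hφ k
  have e : ∀ z : Fin m → ℝ, UL μ s r (MF c N φ z) y * ht μ s r c N φ k z y
      = ((1 / r) * UL μ s r (fun x => MF c N φ z x * XB μ s k x) y
        + (1 / r * s) * UL μ s r (pd (MF c N φ z) k) y)
        + (-(1 / r) * XB μ r k y - sN (UL μ s r N) k y) * UL μ s r (MF c N φ z) y := by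
    intro z
    unfold ht
    rw [mul_sub, U_mul_sN h (MF_Pos hN hφ z) hs hsr]
    ring
  simp_rw [e]
  have i1 := (GB.ul h hs hsr hMX).int_z y
  have i2 := (GB.ul h hs hsr hP).int_z y
  have i3 := (GB.ul h hs hsr hM).int_z y
  have i12 : Integrable (fun z : Fin m → ℝ =>
      (1 / r) * UL μ s r (fun x => MF c N φ z x * XB μ s k x) y
        + (1 / r * s) * UL μ s r (pd (MF c N φ z) k) y) (gsn m) :=
    (i1.const_mul _).add (i2.const_mul _)
  rw [integral_add i12 (i3.const_mul _),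
    integral_add (i1.const_mul _) (i2.const_mul _), integral_const_mul, integral_const_mul,
    integral_const_mul, UL_int h hMX, UL_int h hP, UL_int h hM, az_MF hc, az_MF_mul hc,
    az_pdMF hN hc hφ]
  have h3 := U_mul_sN (μ := μ) h hN hs hsr k y
  linear_combination -h3

end push

end Vale.Agent.P245.H807
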