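import Mathlib
import Vale.Agent.P245.H807.LU2

/-! # P245, Lemma U (helper807): families with exponential growth in both variables -/

set_option linter.all false

open MeasureTheory Real Set Filter Topology
open scoped ENNReal ContDiff

namespace Vale.Agent.P245.H807

open Vale.Agent.P245 Vale.Agent.P245.LS Vale.Agent.P245.E1 Vale.Agent.P245.LS.Down

variable {n m : ℕ}

/-- jointly measurable families with at most exponential growth in both variables -/
structure GE (F : (Fin m → ℝ) → (Fin n → ℝ) → ℝ) : Prop where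
  meas : Measurable (Function.uncurry F)
  eg : ∃ C, 0 ≤ C ∧ ∀ z x, |F z x| ≤ C * exp (C * (∑ i, |z i| + ∑ i, |x i|))

theorem GE.of_gb {F : (Fin m → ℝ) → (Fin n → ℝ) → ℝ} (h : GB F) : GE F := by
  obtain ⟨C, hC0, hC⟩ := h.eg
  refine ⟨h.meas, C, hC0, fun z x => (hC (z, x)).trans ?_⟩
  apply mul_le_mul_of_nonneg_left _ hC0
  apply exp_le_exp.2
  apply mul_le_mul_of_nonneg_left _ hC0
  have : 0 ≤ ∑ i, |x i| := Finset.sum_nonneg fun i _ => abs_nonneg _
  simp only
  linarith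

theorem GE.of_eg {g : (Fin n → ℝ) → ℝ} (hm : Measurable g) (hg : EG1 g) :
    GE fun (_ : Fin m → ℝ) x => g x := by
  obtain ⟨C, hC0, hC⟩ := hg
  refine ⟨hm.comp measurable_snd, C, hC0, fun z x => (hC x).trans ?_⟩
  apply mul_le_mul_of_nonneg_left _ hC0
  apply exp_le_exp.2
  apply mul_le_mul_of_nonneg_left _ hC0
  have : 0 ≤ ∑ i, |z i| := Finset.sum_nonneg fun i _ => abs_nonneg _
  linarith

theorem GE.add {F G : (Fin m → ℝ) → (Fin n → ℝ) → ℝ} (hF : GE F) (hG : GE G) :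
    GE fun z x => F z x + G z x := by
  obtain ⟨C, hC, h1⟩ := hF.eg
  obtain ⟨C', hC', h2⟩ := hG.eg
  refine ⟨hF.meas.add hG.meas, C + C', by positivity, fun z x => ?_⟩
  have hS : 0 ≤ ∑ i, |z i| + ∑ i, |x i| :=
    add_nonneg (Finset.sum_nonneg fun i _ => abs_nonneg _) (Finset.sum_nonneg fun i _ => abs_nonneg _)
  set S := ∑ i, |z i| + ∑ i, |x i| with hSdef
  have e1 : exp (C * S) ≤ exp ((C + C') * S) :=
    exp_le_exp.2 (mul_le_mul_of_nonneg_right (by linarith) hS)
  have e2 : exp (C' * S) ≤ exp ((C + C') * S) :=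
    exp_le_exp.2 (mul_le_mul_of_nonneg_right (by linarith) hS)
  calc |F z x + G z x| ≤ |F z x| + |G z x| := abs_add_le _ _
    _ ≤ C * exp (C * S) + C' * exp (C' * S) := add_le_add (h1 z x) (h2 z x)
    _ ≤ C * exp ((C + C') * S) + C' * exp ((C + C') * S) :=
        add_le_add (mul_le_mul_of_nonneg_left e1 hC) (mul_le_mul_of_nonneg_left e2 hC')
    _ = _ := by ring

theorem GE.mul {F G : (Fin m → ℝ) → (Fin n → ℝ) → ℝ} (hF : GE F) (hG : GE G) :
    GE fun z x => F z x * G z x := by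
  obtain ⟨C, hC, h1⟩ := hF.eg
  obtain ⟨C', hC', h2⟩ := hG.eg
  refine ⟨hF.meas.mul hG.meas, C * C' + C + C', by positivity, fun z x => ?_⟩
  have hS : 0 ≤ ∑ i, |z i| + ∑ i, |x i| :=
    add_nonneg (Finset.sum_nonneg fun i _ => abs_nonneg _) (Finset.sum_nonneg fun i _ => abs_nonneg _)
  set S := ∑ i, |z i| + ∑ i, |x i| with hSdef
  have hCC : 0 ≤ C * C' := mul_nonneg hC hC'
  rw [abs_mul]
  calc |F z x| * |G z x| ≤ (C * exp (C * S)) * (C' * exp (C' * S)) :=
        mul_le_mul (h1 z x) (h2 z x) (abs_nonneg _) (by positivity)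
    _ = C * C' * exp ((C + C') * S) := by
        rw [add_mul, exp_add]; ring
    _ ≤ (C * C' + C + C') * exp ((C * C' + C + C') * S) := by
        apply mul_le_mul (by linarith) _ (exp_pos _).le (by positivity)
        apply exp_le_exp.2
        apply mul_le_mul_of_nonneg_right _ hS
        linarith

theorem GE.const (c : ℝ) : GE fun (_ : Fin m → ℝ) (_ : Fin n → ℝ) => c :=
  GE.of_gb (GB.const c)

theorem GE.const_mul (c : ℝ) {F : (Fin m → ℝ) → (Fin n → ℝ) → ℝ} (hF : GE F) :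
    GE fun z x => c * F z x := (GE.const c).mul hF

theorem GE.neg {F : (Fin m → ℝ) → (Fin n → ℝ) → ℝ} (hF : GE F) :
    GE fun z x => -F z x := by
  have := hF.const_mul (-1)
  simpa only [neg_mul, one_mul] using this

theorem GE.sub {F G : (Fin m → ℝ) → (Fin n → ℝ) → ℝ} (hF : GE F) (hG : GE G) :
    GE fun z x => F z x - G z x := by
  have := hF.add hG.neg
  simpa only [sub_eq_add_neg] using this

theorem GE.sq {F : (Fin m → ℝ) → (Fin n → ℝ) → ℝ} (hF : GE F) :
    GE fun z x => F z x ^ 2 := by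
  have := hF.mul hF
  simpa only [pow_two] using this

theorem GE.sum {ι : Type*} (s : Finset ι) {F : ι → (Fin m → ℝ) → (Fin n → ℝ) → ℝ}
    (hF : ∀ i ∈ s, GE (F i)) : GE fun z x => ∑ i ∈ s, F i z x := by
  classical
  induction s using Finset.induction_on with
  | empty => simpa using GE.const (n := n) (m := m) 0
  | insert i s hi ih =>
    simp only [Finset.sum_insert hi]
    exact (hF i (Finset.mem_insert_self _ _)).add (ih fun j hj => hF j (Finset.mem_insert_of_mem hj))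

section ee

variable {μ : Measure (Fin n → ℝ)} [IsProbabilityMeasure μ] {R s : ℝ}
  {F G M : (Fin m → ℝ) → (Fin n → ℝ) → ℝ}

theorem int_exp_lw (h : CSupp μ R) (s : ℝ) {C : ℝ} (hC : 0 ≤ C) :
    Integrable (fun x : Fin n → ℝ => exp (C * ∑ i, |x i|)) (lw μ s) := by
  have hEG : EG1 fun x : Fin n → ℝ => exp (C * ∑ i, |x i|) := by
    refine ⟨C + 1, by linarith, fun z => ?_⟩
    have hS : 0 ≤ ∑ i, |z i| := Finset.sum_nonneg fun i _ => abs_nonneg _
    rw [abs_of_pos (exp_pos _)]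
    have h1 : exp (C * ∑ i, |z i|) ≤ exp ((C + 1) * ∑ i, |z i|) :=
      exp_le_exp.2 (mul_le_mul_of_nonneg_right (by linarith) hS)
    exact h1.trans (le_mul_of_one_le_left (exp_pos _).le (by linarith))
  have hc : Continuous fun x : Fin n → ℝ => exp (C * ∑ i, |x i|) := by fun_prop
  have := hEG.int_prod h hc (√s)
  unfold lw
  exact (integrable_map_measure hc.aestronglyMeasurable (measurable_lwmap s).aemeasurable).2 this

theorem EY_eq_lw_ge (h : CSupp μ R) {Φ : (Fin n → ℝ) → ℝ} (hm : Measurable Φ) (hΦ : EG1 Φ) (s : ℝ) :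
    EY μ s Φ = ∫ y, Φ y ∂(lw μ s) := by
  obtain ⟨C, hC0, hC⟩ := hΦ
  have hi : Integrable Φ (lw μ s) :=
    ((int_exp_lw h s hC0).const_mul C).mono' hm.aestronglyMeasurable
      (Eventually.of_forall fun y => by rw [norm_eq_abs]; exact hC y)
  unfold lw at hi ⊢
  have hi' := (integrable_map_measure hm.aestronglyMeasurable
    (measurable_lwmap s).aemeasurable).1 hi
  rw [integral_map (measurable_lwmap s).aemeasurable hm.aestronglyMeasurable]
  unfold EY PH
  exact (integral_prod _ hi').symm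

theorem GE.integrable (h : CSupp μ R) (hF : GE F) :
    Integrable (Function.uncurry F) ((gsn m).prod (lw μ s)) := by
  obtain ⟨C, hC0, hC⟩ := hF.eg
  have h1 := ((integrable_exp_abs (n := m) C).const_mul C).mul_prod (int_exp_lw h s hC0)
  refine h1.mono' hF.meas.aestronglyMeasurable (Eventually.of_forall fun q => ?_)
  rw [norm_eq_abs]
  refine (hC q.1 q.2).trans (le_of_eq ?_)
  rw [mul_add, exp_add]
  ring

theorem GE.eg1 (hF : GE F) (z : Fin m → ℝ) : EG1 (F z) := by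
  obtain ⟨C, hC0, hC⟩ := hF.eg
  have hz : 0 ≤ ∑ i, |z i| := Finset.sum_nonneg fun i _ => abs_nonneg _
  refine ⟨C * exp (C * ∑ i, |z i|), by positivity, fun x => (hC z x).trans ?_⟩
  have hx : 0 ≤ ∑ i, |x i| := Finset.sum_nonneg fun i _ => abs_nonneg _
  rw [mul_add, exp_add, ← mul_assoc]
  apply mul_le_mul_of_nonneg_left _ (by positivity)
  apply exp_le_exp.2
  apply mul_le_mul_of_nonneg_right _ hx
  have h1 : 1 ≤ exp (C * ∑ i, |z i|) := one_le_exp (by positivity)
  exact le_mul_of_one_le_right hC0 h1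

theorem GE.ee (h : CSupp μ R) (hF : GE F) :
    EE m μ s F = ∫ q, Function.uncurry F q ∂((gsn m).prod (lw μ s)) := by
  rw [integral_prod _ (hF.integrable h)]
  unfold EE
  congr 1
  funext z
  exact EY_eq_lw_ge h (hF.meas.comp measurable_prodMk_left) (hF.eg1 z) s

theorem GE.ee_swap (h : CSupp μ R) (hF : GE F) :
    EE m μ s F = ∫ y, ∫ z, F z y ∂(gsn m) ∂(lw μ s) := by
  rw [hF.ee h, integral_prod_symm _ (hF.integrable h)]
  rfl

/-- average over the output first -/
theorem GE.ee_avg (h : CSupp μ R) (hF : GE F) {g : (Fin n → ℝ) → ℝ} (hm : Measurable g)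
    (hg : EG1 g) (hav : ∀ x, ∫ z, F z x ∂(gsn m) = g x) : EE m μ s F = EY μ s g := by
  rw [hF.ee_swap h, EY_eq_lw_ge h hm hg]
  simp_rw [hav]

theorem EE_addE (h : CSupp μ R) (hF : GE F) (hG : GE G) :
    EE m μ s (fun z x => F z x + G z x) = EE m μ s F + EE m μ s G := by
  rw [(hF.add hG).ee h, hF.ee h, hG.ee h, ← integral_add (hF.integrable h) (hG.integrable h)]
  rfl

theorem EE_const_mulE (h : CSupp μ R) (c : ℝ) (hF : GE F) :
    EE m μ s (fun z x => c * F z x) = c * EE m μ s F := by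
  rw [(hF.const_mul c).ee h, hF.ee h, ← integral_const_mul]
  rfl

theorem EE_negE (h : CSupp μ R) (hF : GE F) : EE m μ s (fun z x => -F z x) = -EE m μ s F := by
  rw [hF.neg.ee h, hF.ee h, ← integral_neg]
  rfl

theorem EE_subE (h : CSupp μ R) (hF : GE F) (hG : GE G) :
    EE m μ s (fun z x => F z x - G z x) = EE m μ s F - EE m μ s G := by
  rw [(hF.sub hG).ee h, hF.ee h, hG.ee h, ← integral_sub (hF.integrable h) (hG.integrable h)]
  rfl

theorem EE_sumE (h : CSupp μ R) {ι : Type*} (t : Finset ι) {F : ι → (Fin m → ℝ) → (Fin n → ℝ) → ℝ}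
    (hF : ∀ i ∈ t, GE (F i)) :
    EE m μ s (fun z x => ∑ i ∈ t, F i z x) = ∑ i ∈ t, EE m μ s (F i) := by
  rw [(GE.sum t hF).ee h]
  have h1 : ∀ i ∈ t, EE m μ s (F i) = ∫ q, Function.uncurry (F i) q ∂((gsn m).prod (lw μ s)) :=
    fun i hi => (hF i hi).ee h
  rw [Finset.sum_congr rfl h1, ← integral_finsetSum t fun i hi => (hF i hi).integrable h]
  rfl

theorem EE_monoE (h : CSupp μ R) (hF : GE F) (hG : GE G) (hFG : ∀ z x, F z x ≤ G z x) :
    EE m μ s F ≤ EE m μ s G := by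
  rw [hF.ee h, hG.ee h]
  exact integral_mono (hF.integrable h) (hG.integrable h) fun q => hFG q.1 q.2

theorem EE_nonnegE (h : CSupp μ R) (hF : GE F) (h0 : ∀ z x, 0 ≤ F z x) : 0 ≤ EE m μ s F := by
  rw [hF.ee h]
  exact integral_nonneg fun q => h0 q.1 q.2

/-- a form of Cauchy-Schwarz for numbers -/
theorem le_sqrt_mul_of_quad {A B C : ℝ} (hA : 0 ≤ A)
    (h : ∀ a : ℝ, 0 ≤ A * (a * a) + (-2 * C) * a + B) : C ≤ √A * √B := by
  have hd := discrim_le_zero h
  have h2 : C ^ 2 ≤ A * B := by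
    unfold discrim at hd
    nlinarith
  rw [← sqrt_mul hA]
  exact (le_abs_self _).trans (abs_le_sqrt h2)

/-- weighted Cauchy-Schwarz for finite families, exponential growth -/
theorem EE_cs_sumE (h : CSupp μ R) {ι : Type*} (t : Finset ι)
    {F G : ι → (Fin m → ℝ) → (Fin n → ℝ) → ℝ}
    (hM : GE M) (hM0 : ∀ z x, 0 ≤ M z x) (hF : ∀ i ∈ t, GE (F i)) (hG : ∀ i ∈ t, GE (G i)) :
    EE m μ s (fun z x => M z x * ∑ i ∈ t, F i z x * G i z x)
      ≤ √(EE m μ s fun z x => M z x * ∑ i ∈ t, F i z x ^ 2)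
        * √(EE m μ s fun z x => M z x * ∑ i ∈ t, G i z x ^ 2) := by
  have gF2 : GE fun z x => ∑ i ∈ t, F i z x ^ 2 := GE.sum t fun i hi => (hF i hi).sq
  have gG2 : GE fun z x => ∑ i ∈ t, G i z x ^ 2 := GE.sum t fun i hi => (hG i hi).sq
  have gFG : GE fun z x => ∑ i ∈ t, F i z x * G i z x :=
    GE.sum t fun i hi => (hF i hi).mul (hG i hi)
  have hA0 : 0 ≤ EE m μ s fun z x => M z x * ∑ i ∈ t, F i z x ^ 2 :=
    EE_nonnegE h (hM.mul gF2) fun z x =>
      mul_nonneg (hM0 z x) (Finset.sum_nonneg fun i _ => sq_nonneg _)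
  refine le_sqrt_mul_of_quad hA0 fun a => ?_
  have gd : GE fun z x => ∑ i ∈ t, (a * F i z x - G i z x) ^ 2 :=
    GE.sum t fun i hi => (((hF i hi).const_mul a).sub (hG i hi)).sq
  have h0 : 0 ≤ EE m μ s fun z x => M z x * ∑ i ∈ t, (a * F i z x - G i z x) ^ 2 :=
    EE_nonnegE h (hM.mul gd) fun z x => mul_nonneg (hM0 z x)
      (Finset.sum_nonneg fun i _ => sq_nonneg _)
  have e : (fun (z : Fin m → ℝ) (x : Fin n → ℝ) => M z x * ∑ i ∈ t, (a * F i z x - G i z x) ^ 2)
      = fun z x => ((a * a) * (M z x * ∑ i ∈ t, F i z x ^ 2)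
        + (-2 * a) * (M z x * ∑ i ∈ t, F i z x * G i z x))
        + M z x * ∑ i ∈ t, G i z x ^ 2 := by
    funext z x
    have e1 : ∑ i ∈ t, (a * F i z x - G i z x) ^ 2 = (a * a) * ∑ i ∈ t, F i z x ^ 2
        + (-2 * a) * ∑ i ∈ t, F i z x * G i z x + ∑ i ∈ t, G i z x ^ 2 := by
      rw [Finset.mul_sum, Finset.mul_sum, ← Finset.sum_add_distrib, ← Finset.sum_add_distrib]
      exact Finset.sum_congr rfl fun i _ => by ring
    rw [e1]; ring
  rw [e, EE_addE h (((hM.mul gF2).const_mul _).add ((hM.mul gFG).const_mul _))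
    (hM.mul gG2), EE_addE h ((hM.mul gF2).const_mul _) ((hM.mul gFG).const_mul _),
    EE_const_mulE h _ (hM.mul gF2), EE_const_mulE h _ (hM.mul gFG)] at h0
  linarith

end ee

end Vale.Agent.P245.H807
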