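import Mathlib
import Vale.Agent.P245.H807.LU3

/-! # P245, Lemma U (helper807): the identity for `J_t` and its upper bound -/

set_option linter.all false

open MeasureTheory Real Set Filter Topology
open scoped ENNReal ContDiff

namespace Vale.Agent.P245.H807

open Vale.Agent.P245 Vale.Agent.P245.LS Vale.Agent.P245.E1 Vale.Agent.P245.LS.Down

variable {n m : ℕ}

theorem sq_int_le {Ω : Type*} [MeasurableSpace Ω] {P : Measure Ω} [IsProbabilityMeasure P]
    {g : Ω → ℝ} (hm : Measurable g) {C : ℝ} (hC : ∀ q, |g q| ≤ C) :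
    (∫ q, g q ∂P) ^ 2 ≤ ∫ q, g q ^ 2 ∂P := by
  have i1 : Integrable g P := Integrable.of_bound hm.aestronglyMeasurable C
    (Eventually.of_forall fun q => by rw [norm_eq_abs]; exact hC q)
  have i2 : Integrable (fun q => g q ^ 2) P :=
    Integrable.of_bound (hm.pow_const 2).aestronglyMeasurable (C ^ 2)
    (Eventually.of_forall fun q => by
      rw [norm_eq_abs, abs_of_nonneg (sq_nonneg _), ← sq_abs]
      exact pow_le_pow_left₀ (abs_nonneg _) (hC q) 2)
  set a := ∫ q, g q ∂P with ha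
  have h0 : 0 ≤ ∫ q, (g q - a) ^ 2 ∂P := integral_nonneg fun q => sq_nonneg _
  have e : ∀ q, (g q - a) ^ 2 = (g q ^ 2 + (-2 * a) * g q) + a ^ 2 := fun q => by ring
  simp_rw [e] at h0
  have i3 : Integrable (fun q => g q ^ 2 + (-2 * a) * g q) P := i2.add (i1.const_mul _)
  rw [integral_add i3 (integrable_const _), integral_add i2 (i1.const_mul _),
    integral_const_mul, ← ha] at h0
  simp only [integral_const, probReal_univ, smul_eq_mul, one_mul] at h0
  nlinarith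

theorem PH_sq_le {g : (Fin n → ℝ) → ℝ} (hg : BM g) (u : ℝ) (x : Fin n → ℝ) :
    PH u g x ^ 2 ≤ PH u (fun y => g y ^ 2) x := by
  obtain ⟨C, hC⟩ := hg.2
  exact sq_int_le (P := gsn n) (g := fun z => g (x + √u • z)) (hg.1.comp (by fun_prop))
    (fun z => hC _)

section main

variable {μ : Measure (Fin n → ℝ)} [IsProbabilityMeasure μ] {R : ℝ}
  {c s r : ℝ} {N : (Fin n → ℝ) → ℝ} {φ : Fin m → (Fin n → ℝ) → ℝ}

/-- Fisher information of the pushed channel -/
noncomputable def JT (μ : Measure (Fin n → ℝ)) (s r c : ℝ) (N : (Fin n → ℝ) → ℝ)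
    (φ : Fin m → (Fin n → ℝ) → ℝ) : ℝ :=
  EE m μ r fun z y => UL μ s r (MF c N φ z) y * ∑ k, ht μ s r c N φ k z y ^ 2

/-- `E[h_t | X]` -/
noncomputable def HH (μ : Measure (Fin n → ℝ)) (s r c : ℝ) (N : (Fin n → ℝ) → ℝ)
    (φ : Fin m → (Fin n → ℝ) → ℝ) (k : Fin n) (z : Fin m → ℝ) (x : Fin n → ℝ) : ℝ :=
  PH (r - s) (ht μ s r c N φ k z) x

theorem GB.HH (h : CSupp μ R) (hN : Pos N) (hc : 0 ≤ c) (hφ : ∀ a, SB (φ a)) (hs : 0 < s)
    (hsr : s ≤ r) (k : Fin n) : GB (H807.HH μ s r c N φ k) :=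
  (GB.ht h hN hc hφ hs hsr k).ph (r - s)

theorem JT_nonneg (h : CSupp μ R) (hN : Pos N) (hc : 0 ≤ c) (hφ : ∀ a, SB (φ a)) (hs : 0 < s)
    (hsr : s ≤ r) : 0 ≤ JT μ s r c N φ := by
  refine EE_nonneg ((GB.ul h hs hsr (GB.mf hN.sb hc hφ)).mul
    (GB.sum Finset.univ fun k _ => (GB.ht h hN hc hφ hs hsr k).sq)) fun z y => ?_
  exact mul_nonneg ((UL_Pos h hs hsr (MF_Pos hN hφ z)).pos y).le
    (Finset.sum_nonneg fun k _ => sq_nonneg _)

/-- Jensen -/
theorem HH_le (h : CSupp μ R) (hN : Pos N) (hc : 0 ≤ c) (hφ : ∀ a, SB (φ a)) (hs : 0 < s)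
    (hsr : s ≤ r) :
    EE m μ s (fun z x => MF c N φ z x * ∑ k, HH μ s r c N φ k z x ^ 2) ≤ JT μ s r c N φ := by
  have hM := GB.mf hN.sb hc hφ
  have hh := fun k => GB.ht (m := m) (c := c) (φ := φ) h hN hc hφ hs hsr k
  have hS : GB fun (z : Fin m → ℝ) (y : Fin n → ℝ) => ∑ k, ht μ s r c N φ k z y ^ 2 :=
    GB.sum Finset.univ fun k _ => (hh k).sq
  have h1 := EE_adj (μ := μ) h hs hsr hM hS
  unfold JT
  rw [h1]
  refine EE_mono (hM.mul (GB.sum Finset.univ fun k _ => (GB.HH h hN hc hφ hs hsr k).sq))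
    (hM.mul (hS.ph _)) fun z x => ?_
  apply mul_le_mul_of_nonneg_left _ ((MF_Pos hN hφ z).pos x).le
  have e : PH (r - s) (fun y => ∑ k, ht μ s r c N φ k z y ^ 2) x
      = ∑ k, PH (r - s) (fun y => ht μ s r c N φ k z y ^ 2) x := by
    unfold PH
    refine integral_finsetSum _ fun k _ => ?_
    obtain ⟨C, hC⟩ := ((hh k).bm z).2
    refine Integrable.of_bound ((((hh k).bm z).1.comp (by fun_prop)).pow_const 2).aestronglyMeasurable
      (C ^ 2) (Eventually.of_forall fun w => ?_)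
    rw [norm_eq_abs, abs_of_nonneg (sq_nonneg _), ← sq_abs]
    exact pow_le_pow_left₀ (abs_nonneg _) (hC _) 2
  rw [e]
  exact Finset.sum_le_sum fun k _ => PH_sq_le ((hh k).bm z) _ x

/-- terms with a factor depending on `y` only vanish -/
theorem ht_orth (h : CSupp μ R) (hN : Pos N) (hc : 0 ≤ c) (hφ : ∀ a, SB (φ a)) (hs : 0 < s)
    (hsr : s ≤ r) (k : Fin n) {g : (Fin n → ℝ) → ℝ} (hg : BM g) :
    EE m μ r (fun z y => UL μ s r (MF c N φ z) y * ht μ s r c N φ k z y * g y) = 0 := by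
  have hM := GB.mf hN.sb hc hφ
  have hF : GB fun (z : Fin m → ℝ) (y : Fin n → ℝ) =>
      UL μ s r (MF c N φ z) y * ht μ s r c N φ k z y * g y :=
    ((GB.ul h hs hsr hM).mul (GB.ht h hN hc hφ hs hsr k)).mul (GB.of_bm hg)
  rw [hF.ee_swap]
  have : ∀ y, ∫ z, UL μ s r (MF c N φ z) y * ht μ s r c N φ k z y * g y ∂(gsn m) = 0 := by
    intro y
    rw [integral_mul_const, int_ht h hN hc hφ hs hsr k y, zero_mul]
  simp_rw [this]
  exact integral_zero _ _

/-- the identity for `J_t`, one component -/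
theorem JT_comp (h : CSupp μ R) (hN : Pos N) (hc : 0 ≤ c) (hφ : ∀ a, SB (φ a)) (hs : 0 < s)
    (hsr : s ≤ r) (k : Fin n) :
    EE m μ r (fun z y => UL μ s r (MF c N φ z) y * ht μ s r c N φ k z y ^ 2)
      = EE m μ s (fun z x => MF c N φ z x * (h0 c φ k z x * HH μ s r c N φ k z x))
        + EE m μ s (fun z x => MF c N φ z x * (sN N k x * HH μ s r c N φ k z x))
        - EE m μ r (fun z y => UL μ s r (MF c N φ z) y
          * (ht μ s r c N φ k z y * mm μ s r (MF c N φ z) k y)) := by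
  have hM := GB.mf hN.sb hc hφ
  have hU := GB.ul h hs hsr hM
  have hh := GB.ht (m := m) (c := c) (φ := φ) h hN hc hφ hs hsr k
  have hH := GB.HH (m := m) (c := c) (φ := φ) h hN hc hφ hs hsr k
  have hmm := GB.mm (m := m) (c := c) (φ := φ) h hN hc hφ hs hsr k
  have hP := GB.pdMF (m := m) (c := c) (φ := φ) hN hc hφ k
  have hq : SB (sN N k) := hN.div (hN.sb.pd k)
  have hUN := UL_Pos (μ := μ) h hs hsr hN
  have hqN : SB (sN (UL μ s r N) k) := hUN.div (hUN.sb.pd k)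
  have e1 : (fun (z : Fin m → ℝ) (y : Fin n → ℝ) =>
      UL μ s r (MF c N φ z) y * ht μ s r c N φ k z y ^ 2)
      = fun z y => (UL μ s r (pd (MF c N φ z) k) y * ht μ s r c N φ k z y
        - UL μ s r (MF c N φ z) y * (ht μ s r c N φ k z y * mm μ s r (MF c N φ z) k y))
        - UL μ s r (MF c N φ z) y * ht μ s r c N φ k z y * sN (UL μ s r N) k y := by
    funext z y
    have hne := ((UL_Pos (μ := μ) h hs hsr (MF_Pos (c := c) hN hφ z)).pos y).ne'
    have hus : UL μ s r (pd (MF c N φ z) k) y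
        = UL μ s r (MF c N φ z) y * us μ s r (MF c N φ z) k y := by
      unfold us; field_simp
    rw [hus]
    have hmm' : mm μ s r (MF c N φ z) k y
        = us μ s r (MF c N φ z) k y - sN (UL μ s r (MF c N φ z)) k y := rfl
    have hht' : ht μ s r c N φ k z y
        = sN (UL μ s r (MF c N φ z)) k y - sN (UL μ s r N) k y := rfl
    rw [hmm', hht']
    ring
  have hUP := GB.ul h hs hsr hP
  rw [e1, EE_sub ((hUP.mul hh).sub (hU.mul (hh.mul hmm)))
    ((hU.mul hh).mul (GB.of_sb hqN)), EE_sub (hUP.mul hh) (hU.mul (hh.mul hmm)),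
    ht_orth h hN hc hφ hs hsr k (SB.bm hqN), sub_zero, EE_adj h hs hsr hP hh]
  congr 1
  have hh0 := GB.h0 (c := c) hφ k
  rw [← EE_add (hM.mul (hh0.mul hH)) (hM.mul ((GB.of_sb hq).mul hH))]
  congr 1
  funext z x
  rw [pd_MF hN hc hφ]
  unfold HH
  ring

/-- the identity for `J_t` -/
theorem JT_eq (h : CSupp μ R) (hN : Pos N) (hc : 0 ≤ c) (hφ : ∀ a, SB (φ a)) (hs : 0 < s)
    (hsr : s ≤ r) :
    JT μ s r c N φ
      = EE m μ s (fun z x => MF c N φ z x * ∑ k, h0 c φ k z x * HH μ s r c N φ k z x)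
        + EE m μ s (fun z x => MF c N φ z x * ∑ k, sN N k x * HH μ s r c N φ k z x)
        - EE m μ r (fun z y => UL μ s r (MF c N φ z) y
          * ∑ k, ht μ s r c N φ k z y * mm μ s r (MF c N φ z) k y) := by
  have hM := GB.mf hN.sb hc hφ
  have hU := GB.ul h hs hsr hM
  have hh := fun k => GB.ht (m := m) (c := c) (φ := φ) h hN hc hφ hs hsr k
  have hH := fun k => GB.HH (m := m) (c := c) (φ := φ) h hN hc hφ hs hsr k
  have hmm := fun k => GB.mm (m := m) (c := c) (φ := φ) h hN hc hφ hs hsr k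
  have hq : ∀ k, SB (sN N k) := fun k => hN.div (hN.sb.pd k)
  have hh0 := fun k => GB.h0 (c := c) hφ k
  unfold JT
  simp_rw [Finset.mul_sum]
  rw [EE_sum _ fun k _ => hU.mul (hh k).sq, EE_sum _ fun k _ => hM.mul ((hh0 k).mul (hH k)),
    EE_sum _ fun k _ => hM.mul ((GB.of_sb (hq k)).mul (hH k)),
    EE_sum _ fun k _ => hU.mul ((hh k).mul (hmm k)), ← Finset.sum_add_distrib,
    ← Finset.sum_sub_distrib]
  exact Finset.sum_congr rfl fun k _ => JT_comp h hN hc hφ hs hsr k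

end main

end Vale.Agent.P245.H807
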