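import Mathlib
import Vale.Agent.P245.H807.LU4

/-! # P245, Lemma U (helper807): bounds for the terms of `J_t` -/

set_option linter.all false

open MeasureTheory Real Set Filter Topology
open scoped ENNReal ContDiff

namespace Vale.Agent.P245.H807

open Vale.Agent.P245 Vale.Agent.P245.LS Vale.Agent.P245.E1 Vale.Agent.P245.LS.Down

variable {n m : ℕ}

theorem eg1_bm {g : (Fin n → ℝ) → ℝ} (hg : BM g) : EG1 g := by
  obtain ⟨C, hC⟩ := hg.2
  exact EG1.of_bdd' hC

/-- pointwise quadratic form for the integration by parts -/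
theorem quad_pt {g : (Fin n → ℝ) → ℝ} (hg : SB g) {t : ℝ} (ht : 0 < t) (x b : Fin n → ℝ) (a : ℝ) :
    0 ≤ a ^ 2 * PH t (fun y => g y ^ 2) x + 2 * a * (√t * ∑ k, b k * pd (PH t g) k x)
      + ∑ k, b k ^ 2 := by
  have hgc : Continuous fun w : Fin n → ℝ => g (x + √t • w) := hg.continuous.comp (by fun_prop)
  obtain ⟨C, hC⟩ := hg.bdd
  have eg : EG1 fun w : Fin n → ℝ => g (x + √t • w) := EG1.of_bdd' fun w => hC _
  have i1 : Integrable (fun w : Fin n → ℝ => g (x + √t • w) ^ 2) (gsn n) := by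
    refine Integrable.of_bound (hgc.pow 2).aestronglyMeasurable (C ^ 2)
      (Eventually.of_forall fun w => ?_)
    rw [norm_eq_abs, abs_of_nonneg (sq_nonneg _), ← sq_abs]
    exact pow_le_pow_left₀ (abs_nonneg _) (hC _) 2
  have i2 : ∀ k, Integrable (fun w : Fin n → ℝ => w k * g (x + √t • w)) (gsn n) := fun k =>
    (eg.mul_coord k).integrable ((continuous_apply k).mul hgc).aestronglyMeasurable
  have hL : EG1 fun w : Fin n → ℝ => 0 + ∑ k, w k * b k := by
    refine (EG1.const _).add (EG1.sum (n := n) Finset.univ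
      (φ := fun k w => w k * b k) fun k _ => ?_)
    have := (EG1.coord (n := n) k).const_mul (b k)
    simpa [mul_comm] using this
  have i3 : Integrable (fun w : Fin n → ℝ => (0 + ∑ k, w k * b k) ^ 2) (gsn n) := by
    have := (hL.mul hL).integrable (by exact Continuous.aestronglyMeasurable (by fun_prop))
    simpa only [pow_two] using this
  have h0 : 0 ≤ ∫ w : Fin n → ℝ, (a * g (x + √t • w) + (0 + ∑ k, w k * b k)) ^ 2 ∂(gsn n) :=
    integral_nonneg fun w => sq_nonneg _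
  have e : ∀ w : Fin n → ℝ, (a * g (x + √t • w) + (0 + ∑ k, w k * b k)) ^ 2
      = (a ^ 2 * g (x + √t • w) ^ 2 + ∑ k, (2 * a * b k) * (w k * g (x + √t • w)))
        + (0 + ∑ k, w k * b k) ^ 2 := by
    intro w
    have : ∑ k, (2 * a * b k) * (w k * g (x + √t • w))
        = 2 * a * g (x + √t • w) * ∑ k, w k * b k := by
      rw [Finset.mul_sum]
      exact Finset.sum_congr rfl fun k _ => by ring
    rw [this]; ring
  simp_rw [e] at h0
  have i4 : Integrable (fun w : Fin n → ℝ => a ^ 2 * g (x + √t • w) ^ 2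
      + ∑ k, (2 * a * b k) * (w k * g (x + √t • w))) (gsn n) :=
    (i1.const_mul _).add (integrable_finsetSum _ fun k _ => (i2 k).const_mul _)
  rw [integral_add i4 i3, integral_add (i1.const_mul _)
    (integrable_finsetSum _ fun k _ => (i2 k).const_mul _), integral_const_mul,
    integral_finsetSum _ fun k _ => (i2 k).const_mul _, gauss_affine_sq] at h0
  simp_rw [integral_const_mul] at h0
  have e2 : ∀ k, ∫ w : Fin n → ℝ, w k * g (x + √t • w) ∂(gsn n) = √t * pd (PH t g) k x := by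
    intro k
    rw [ibp hg.differentiable (sb_cbd hg) k (sb_cbd (sb_pd hg k)) x (√t), LS.pd_PH hg]
    rfl
  simp_rw [e2] at h0
  have e3 : ∑ k, 2 * a * b k * (√t * pd (PH t g) k x)
      = 2 * a * (√t * ∑ k, b k * pd (PH t g) k x) := by
    rw [Finset.mul_sum, Finset.mul_sum]
    exact Finset.sum_congr rfl fun k _ => by ring
  rw [e3] at h0
  have e4 : (∫ w : Fin n → ℝ, g (x + √t • w) ^ 2 ∂(gsn n)) = PH t (fun y => g y ^ 2) x := rfl
  rw [e4] at h0
  simpa using h0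

section main

variable {μ : Measure (Fin n → ℝ)} [IsProbabilityMeasure μ] {R : ℝ}
  {c s r : ℝ} {N : (Fin n → ℝ) → ℝ} {φ : Fin m → (Fin n → ℝ) → ℝ}
  {Q : Fin n → Fin n → (Fin n → ℝ) → ℝ}

theorem pd_HH (h : CSupp μ R) (hN : Pos N) (hφ : ∀ a, SB (φ a)) (hs : 0 < s)
    (hsr : s < r) (j k : Fin n) (z : Fin m → ℝ) (x : Fin n → ℝ) :
    pd (HH μ s r c N φ j z) k x
      = (√(r - s))⁻¹ * ∫ w, w k * ht μ s r c N φ j z (x + √(r - s) • w) ∂(gsn n) := by
  have hsb := ht_sb (c := c) (φ := φ) h hN hφ hs hsr.le j z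
  have h1 := ibp hsb.differentiable (sb_cbd hsb) k (sb_cbd (sb_pd hsb k)) x (√(r - s))
  have h2 : pd (HH μ s r c N φ j z) k x = PH (r - s) (pd (ht μ s r c N φ j z) k) x :=
    congrFun (LS.pd_PH hsb (r - s) k) x
  rw [h1, h2]
  have : √(r - s) ≠ 0 := (sqrt_pos.2 (by linarith)).ne'
  unfold PH
  field_simp

theorem GB.pdHH (h : CSupp μ R) (hN : Pos N) (hc : 0 ≤ c) (hφ : ∀ a, SB (φ a)) (hs : 0 < s)
    (hsr : s < r) (j k : Fin n) : GB (m := m) fun z x => pd (H807.HH μ s r c N φ j z) k x := by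
  have hh := GB.ht (m := m) (c := c) (φ := φ) h hN hc hφ hs hsr.le j
  have e : (fun (z : Fin m → ℝ) (x : Fin n → ℝ) => pd (H807.HH μ s r c N φ j z) k x)
      = fun z x => (√(r - s))⁻¹ *
        ∫ w, w k * H807.ht μ s r c N φ j z (x + √(r - s) • w) ∂(gsn n) := by
    funext z x; exact pd_HH h hN hφ hs hsr j k z x
  rw [e]
  apply GB.const_mul
  constructor
  · have h0 : Measurable (fun p : ((Fin m → ℝ) × (Fin n → ℝ)) × (Fin n → ℝ) =>
        (p.1.1, p.1.2 + √(r - s) • p.2)) := Measurable.prodMk (by fun_prop) (by fun_prop)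
    have h1 : Measurable (fun p : ((Fin m → ℝ) × (Fin n → ℝ)) × (Fin n → ℝ) =>
        p.2 k * H807.ht μ s r c N φ j p.1.1 (p.1.2 + √(r - s) • p.2)) :=
      ((measurable_pi_apply k).comp measurable_snd).mul (hh.meas.comp h0)
    exact (h1.stronglyMeasurable.integral_prod_right' (ν := gsn n)).measurable
  · obtain ⟨C, hC0, hC⟩ := hh.eg
    set K := ∫ w : Fin n → ℝ, |w k| ∂(gsn n) with hK
    have hK0 : 0 ≤ K := integral_nonneg fun w => abs_nonneg _
    refine ⟨C * K + C, by positivity, fun q => ?_⟩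
    have hS : 0 ≤ ∑ i, |q.1 i| := Finset.sum_nonneg fun i _ => abs_nonneg _
    have h1 : |∫ w : Fin n → ℝ, w k * H807.ht μ s r c N φ j q.1 (q.2 + √(r - s) • w) ∂(gsn n)|
        ≤ K * (C * exp (C * ∑ i, |q.1 i|)) := by
      rw [← norm_eq_abs, hK, ← integral_mul_const]
      refine norm_integral_le_of_norm_le ((integrable_abs_coord k).mul_const _)
        (Eventually.of_forall fun w => ?_)
      rw [norm_eq_abs, abs_mul]
      exact mul_le_mul_of_nonneg_left (hC (q.1, q.2 + √(r - s) • w)) (abs_nonneg _)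
    refine h1.trans ?_
    have hCK : 0 ≤ C * K := mul_nonneg hC0 hK0
    calc K * (C * exp (C * ∑ i, |q.1 i|)) = (C * K) * exp (C * ∑ i, |q.1 i|) := by ring
      _ ≤ (C * K + C) * exp ((C * K + C) * ∑ i, |q.1 i|) := by
          apply mul_le_mul (by linarith) _ (exp_pos _).le (by positivity)
          apply exp_le_exp.2
          exact mul_le_mul_of_nonneg_right (by linarith) hS

theorem ge_DV (h : CSupp μ R) (hs : 0 < s) (k : Fin n) :
    GE fun (_ : Fin m → ℝ) x => DV μ s k x := by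
  have hX : SB (XB μ s k) := (thR' n μ R h).1 s k hs
  have h1 : GE fun (_ : Fin m → ℝ) (x : Fin n → ℝ) => x k :=
    GE.of_eg (measurable_pi_apply k) (EG1.coord k)
  have h2 : GE fun (_ : Fin m → ℝ) (x : Fin n → ℝ) => XB μ s k x := GE.of_gb (GB.of_sb hX)
  have h3 := (h1.sub h2).const_mul s⁻¹
  have e : (fun (_ : Fin m → ℝ) (x : Fin n → ℝ) => DV μ s k x)
      = fun _ x => s⁻¹ * (x k - XB μ s k x) := by
    funext z x
    unfold DV
    rw [div_eq_inv_mul]
  rw [e]; exact h3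

/-- divergence of the matrix field `Q` with respect to `N p_s` -/
noncomputable def dvQ (μ : Measure (Fin n → ℝ)) (s : ℝ) (N : (Fin n → ℝ) → ℝ)
    (Q : Fin n → Fin n → (Fin n → ℝ) → ℝ) (j : Fin n) (x : Fin n → ℝ) : ℝ :=
  ∑ k, (pd (Q j k) k x + Q j k x * (sN N k x - DV μ s k x))

theorem ge_dvQ (h : CSupp μ R) (hN : Pos N) (hs : 0 < s) (hQ : ∀ j k, SB (Q j k)) (j : Fin n) :
    GE fun (_ : Fin m → ℝ) x => dvQ μ s N Q j x := by
  unfold dvQ
  refine GE.sum _ fun k _ => ?_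
  have hq : SB (sN N k) := hN.div (hN.sb.pd k)
  exact (GE.of_gb (GB.of_sb ((hQ j k).pd k))).add ((GE.of_gb (GB.of_sb (hQ j k))).mul
    ((GE.of_gb (GB.of_sb hq)).sub (ge_DV h hs k)))

/-- integration by parts at level `s`, bounded smooth `G` -/
theorem EY_ibp_sb (h : CSupp μ R) (hs : 0 < s) (k : Fin n) {G : (Fin n → ℝ) → ℝ} (hG : SB G) :
    EY μ s (fun x => DV μ s k x * G x) = EY μ s (pd G k) := by
  have h1 := EY_ibp (μ := μ) h hs k (G := G) (c := fun i => pd G i)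
    (fun y => hasFDerivAt_lf (hG.differentiable y)) (eg1_bm (SB.bm hG))
    (hG.pd k).continuous (eg1_bm (SB.bm (hG.pd k)))
  have e : (fun x => DV μ s k x * G x) = fun x => (-1) * (sc μ k s x * G x) := by
    funext x
    rw [DV_eq]
    ring
  rw [e, EY_const_mul, h1]
  ring

/-! ### the first term -/

theorem A1_le (h : CSupp μ R) (hN : Pos N) (hc : 0 ≤ c) (hφ : ∀ a, SB (φ a)) (hs : 0 < s)
    (hsr : s ≤ r) (hQ : ∀ j k, SB (Q j k)) :
    EE m μ s (fun z x => MF c N φ z x * ∑ j, (h0 c φ j z x - ∑ k, Q j k x * h0 c φ k z x)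
        * HH μ s r c N φ j z x)
      ≤ √(c * EY μ s (fun x => N x * ∑ a, ∑ j, (pd (φ a) j x - ∑ k, Q j k x * pd (φ a) k x) ^ 2))
        * √(JT μ s r c N φ) := by
  have hM := GB.mf hN.sb hc hφ
  have hM0 : ∀ z x, 0 ≤ MF c N φ z x := fun z x => ((MF_Pos hN hφ z).pos x).le
  have hH := fun k => GB.HH (m := m) (c := c) (φ := φ) h hN hc hφ hs hsr k
  have hh0 := fun k => GB.h0 (c := c) hφ k
  have hF : ∀ j, GB fun (z : Fin m → ℝ) (x : Fin n → ℝ) =>
      h0 c φ j z x - ∑ k, Q j k x * h0 c φ k z x := fun j =>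
    (hh0 j).sub (GB.sum _ fun k _ => (GB.of_sb (hQ j k)).mul (hh0 k))
  refine (EE_cs_sum Finset.univ hM hM0 (fun j _ => hF j) (fun j _ => hH j)).trans ?_
  refine mul_le_mul (le_of_eq ?_) (sqrt_le_sqrt (HH_le h hN hc hφ hs hsr)) (sqrt_nonneg _)
    (sqrt_nonneg _)
  congr 1
  have hW : ∀ a j, SB fun x => pd (φ a) j x - ∑ k, Q j k x * pd (φ a) k x := fun a j =>
    ((hφ a).pd j).sub (SB.sum _ fun k _ => (hQ j k).mul ((hφ a).pd k))
  have hg : SB fun x => N x * ∑ a, ∑ j, (pd (φ a) j x - ∑ k, Q j k x * pd (φ a) k x) ^ 2 :=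
    hN.sb.mul (SB.sum _ fun a _ => SB.sum _ fun j _ => (hW a j).pow 2)
  rw [← EY_const_mul]
  have hcg : SB fun x => c * (N x * ∑ a, ∑ j, (pd (φ a) j x - ∑ k, Q j k x * pd (φ a) k x) ^ 2) :=
    hg.const_mul c
  refine GE.ee_avg h (GE.of_gb (hM.mul (GB.sum _ fun j _ => (hF j).sq))) hcg.measurable
    (eg1_bm (SB.bm hcg)) fun x => ?_
  have hj : ∀ j, Integrable (fun z : Fin m → ℝ => lk c φ z x *
      (√c * ∑ a, (z a - √c * φ a x) * (pd (φ a) j x - ∑ k, Q j k x * pd (φ a) k x)) ^ 2)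
      (gsn m) := by
    intro j
    have h1 : GB fun (z : Fin m → ℝ) (x : Fin n → ℝ) => lk c φ z x *
      (√c * ∑ a, (z a - √c * φ a x) * (pd (φ a) j x - ∑ k, Q j k x * pd (φ a) k x)) ^ 2 :=
      (GB.lk hc hφ).mul (((GB.sum _ fun a _ => ((GB.coord a).sub
        ((GB.of_sb (hφ a)).const_mul _)).mul (GB.of_sb (hW a j))).const_mul _).sq)
    exact h1.int_z x
  have e : ∀ z : Fin m → ℝ, MF c N φ z x *
      ∑ j, (h0 c φ j z x - ∑ k, Q j k x * h0 c φ k z x) ^ 2
      = N x * ∑ j, lk c φ z x *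
        (√c * ∑ a, (z a - √c * φ a x) * (pd (φ a) j x - ∑ k, Q j k x * pd (φ a) k x)) ^ 2 := by
    intro z
    unfold MF
    rw [mul_assoc, Finset.mul_sum]
    congr 1
    refine Finset.sum_congr rfl fun j _ => ?_
    congr 2
    unfold h0
    have e1 : ∑ k, Q j k x * (√c * ∑ a, (z a - √c * φ a x) * pd (φ a) k x)
        = √c * ∑ a, (z a - √c * φ a x) * ∑ k, Q j k x * pd (φ a) k x := by
      simp_rw [Finset.mul_sum]
      rw [Finset.sum_comm]
      refine Finset.sum_congr rfl fun a _ => Finset.sum_congr rfl fun k _ => ?_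
      ring
    rw [e1, ← mul_sub, ← Finset.sum_sub_distrib]
    congr 1
    exact Finset.sum_congr rfl fun a _ => by ring
  simp_rw [e]
  rw [integral_const_mul, integral_finsetSum _ fun j _ => hj j]
  simp_rw [az_sq hc]
  rw [← Finset.mul_sum, Finset.sum_comm]
  ring

/-! ### the second term -/

theorem A2_eq (h : CSupp μ R) (hN : Pos N) (hc : 0 ≤ c) (hφ : ∀ a, SB (φ a)) (hs : 0 < s)
    (hsr : s < r) (hQ : ∀ j k, SB (Q j k)) :
    EE m μ s (fun z x => MF c N φ z x * ∑ j, (∑ k, Q j k x * h0 c φ k z x)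
        * HH μ s r c N φ j z x)
      = -EE m μ s (fun z x => MF c N φ z x * ∑ j, dvQ μ s N Q j x * HH μ s r c N φ j z x)
        - EE m μ s (fun z x => MF c N φ z x
          * ∑ j, ∑ k, Q j k x * pd (HH μ s r c N φ j z) k x) := by
  have hM := GB.mf hN.sb hc hφ
  have hH := fun k => GB.HH (m := m) (c := c) (φ := φ) h hN hc hφ hs hsr.le k
  have hh0 := fun k => GB.h0 (c := c) hφ k
  have hpH := fun j k => GB.pdHH (m := m) (c := c) (φ := φ) h hN hc hφ hs hsr j k
  have hq : ∀ k, SB (sN N k) := fun k => hN.div (hN.sb.pd k)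
  have hHsb : ∀ j z, SB (HH μ s r c N φ j z) := fun j z =>
    LS.PH_sb (ht_sb h hN hφ hs hsr.le j z) (r - s)
  have hG : ∀ j k z, SB fun x => MF c N φ z x * (Q j k x * HH μ s r c N φ j z x) :=
    fun j k z => (MF_Pos hN hφ z).sb.mul ((hQ j k).mul (hHsb j z))
  -- the derivative
  have hpd : ∀ j k z x, pd (fun x => MF c N φ z x * (Q j k x * HH μ s r c N φ j z x)) k x
      = MF c N φ z x * ((sN N k x + h0 c φ k z x) * (Q j k x * HH μ s r c N φ j z x)
        + (pd (Q j k) k x * HH μ s r c N φ j z x + Q j k x * pd (HH μ s r c N φ j z) k x)) := by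
    intro j k z x
    have e1 := congrFun (LS.pd_mul (MF_Pos (c := c) hN hφ z).sb.differentiable
      ((hQ j k).mul (hHsb j z)).differentiable k) x
    have e2 := congrFun (LS.pd_mul (hQ j k).differentiable (hHsb j z).differentiable k) x
    rw [e1, e2, pd_MF hN hc hφ]
    ring
  -- each component integrates to zero
  have hz : ∀ j k, EE m μ s (fun z x =>
      MF c N φ z x * ((sN N k x + h0 c φ k z x) * (Q j k x * HH μ s r c N φ j z x)
        + (pd (Q j k) k x * HH μ s r c N φ j z x + Q j k x * pd (HH μ s r c N φ j z) k x))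
      - DV μ s k x * (MF c N φ z x * (Q j k x * HH μ s r c N φ j z x))) = 0 := by
    intro j k
    have g1 : GB fun (z : Fin m → ℝ) (x : Fin n → ℝ) =>
        MF c N φ z x * ((sN N k x + h0 c φ k z x) * (Q j k x * HH μ s r c N φ j z x)
        + (pd (Q j k) k x * HH μ s r c N φ j z x + Q j k x * pd (HH μ s r c N φ j z) k x)) :=
      hM.mul ((((GB.of_sb (hq k)).add (hh0 k)).mul ((GB.of_sb (hQ j k)).mul (hH j))).add
        (((GB.of_sb ((hQ j k).pd k)).mul (hH j)).add ((GB.of_sb (hQ j k)).mul (hpH j k))))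
    have g2 : GE fun (z : Fin m → ℝ) (x : Fin n → ℝ) =>
        DV μ s k x * (MF c N φ z x * (Q j k x * HH μ s r c N φ j z x)) :=
      (ge_DV h hs k).mul (GE.of_gb (hM.mul ((GB.of_sb (hQ j k)).mul (hH j))))
    rw [EE_subE h (GE.of_gb g1) g2, sub_eq_zero]
    unfold EE
    congr 1
    funext z
    have := EY_ibp_sb h hs k (hG j k z)
    rw [this]
    congr 1
    funext x
    exact (hpd j k z x).symm
  have g0 : ∀ j k, GE fun (z : Fin m → ℝ) (x : Fin n → ℝ) =>
      MF c N φ z x * ((sN N k x + h0 c φ k z x) * (Q j k x * HH μ s r c N φ j z x)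
        + (pd (Q j k) k x * HH μ s r c N φ j z x + Q j k x * pd (HH μ s r c N φ j z) k x))
      - DV μ s k x * (MF c N φ z x * (Q j k x * HH μ s r c N φ j z x)) := by
    intro j k
    exact (GE.of_gb (hM.mul ((((GB.of_sb (hq k)).add (hh0 k)).mul
      ((GB.of_sb (hQ j k)).mul (hH j))).add (((GB.of_sb ((hQ j k).pd k)).mul (hH j)).add
        ((GB.of_sb (hQ j k)).mul (hpH j k)))))).sub
      ((ge_DV h hs k).mul (GE.of_gb (hM.mul ((GB.of_sb (hQ j k)).mul (hH j)))))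
  have hsum : EE m μ s (fun z x => ∑ j, ∑ k, (
      MF c N φ z x * ((sN N k x + h0 c φ k z x) * (Q j k x * HH μ s r c N φ j z x)
        + (pd (Q j k) k x * HH μ s r c N φ j z x + Q j k x * pd (HH μ s r c N φ j z) k x))
      - DV μ s k x * (MF c N φ z x * (Q j k x * HH μ s r c N φ j z x)))) = 0 := by
    rw [EE_sumE h _ fun j _ => GE.sum _ fun k _ => g0 j k]
    refine Finset.sum_eq_zero fun j _ => ?_
    rw [EE_sumE h _ fun k _ => g0 j k]
    exact Finset.sum_eq_zero fun k _ => hz j k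
  have gA : GE fun (z : Fin m → ℝ) (x : Fin n → ℝ) =>
      MF c N φ z x * ∑ j, (∑ k, Q j k x * h0 c φ k z x) * HH μ s r c N φ j z x :=
    GE.of_gb (hM.mul (GB.sum _ fun j _ => (GB.sum _ fun k _ =>
      (GB.of_sb (hQ j k)).mul (hh0 k)).mul (hH j)))
  have gB : GE fun (z : Fin m → ℝ) (x : Fin n → ℝ) =>
      MF c N φ z x * ∑ j, dvQ μ s N Q j x * HH μ s r c N φ j z x :=
    (GE.of_gb hM).mul (GE.sum _ fun j _ => (ge_dvQ h hN hs hQ j).mul (GE.of_gb (hH j)))
  have gC : GE fun (z : Fin m → ℝ) (x : Fin n → ℝ) => MF c N φ z x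
          * ∑ j, ∑ k, Q j k x * pd (HH μ s r c N φ j z) k x :=
    GE.of_gb (hM.mul (GB.sum _ fun j _ => GB.sum _ fun k _ =>
      (GB.of_sb (hQ j k)).mul (hpH j k)))
  have e : (fun (z : Fin m → ℝ) (x : Fin n → ℝ) => ∑ j, ∑ k, (
      MF c N φ z x * ((sN N k x + h0 c φ k z x) * (Q j k x * HH μ s r c N φ j z x)
        + (pd (Q j k) k x * HH μ s r c N φ j z x + Q j k x * pd (HH μ s r c N φ j z) k x))
      - DV μ s k x * (MF c N φ z x * (Q j k x * HH μ s r c N φ j z x))))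
      = fun z x => (MF c N φ z x * ∑ j, (∑ k, Q j k x * h0 c φ k z x) * HH μ s r c N φ j z x
        + MF c N φ z x * ∑ j, dvQ μ s N Q j x * HH μ s r c N φ j z x)
        + MF c N φ z x * ∑ j, ∑ k, Q j k x * pd (HH μ s r c N φ j z) k x := by
    funext z x
    unfold dvQ
    simp_rw [Finset.mul_sum, Finset.sum_mul, Finset.mul_sum]
    rw [← Finset.sum_add_distrib, ← Finset.sum_add_distrib]
    refine Finset.sum_congr rfl fun j _ => ?_
    rw [← Finset.sum_add_distrib, ← Finset.sum_add_distrib]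
    exact Finset.sum_congr rfl fun k _ => by ring
  rw [e, EE_addE h (gA.add gB) gC, EE_addE h gA gB] at hsum
  linarith

theorem B1_le (h : CSupp μ R) (hN : Pos N) (hc : 0 ≤ c) (hφ : ∀ a, SB (φ a)) (hs : 0 < s)
    (hsr : s ≤ r) (hQ : ∀ j k, SB (Q j k)) :
    -EE m μ s (fun z x => MF c N φ z x * ∑ j, dvQ μ s N Q j x * HH μ s r c N φ j z x)
      ≤ √(EY μ s (fun x => N x * ∑ j, dvQ μ s N Q j x ^ 2)) * √(JT μ s r c N φ) := by
  have hM := GB.mf hN.sb hc hφ
  have hM0 : ∀ z x, 0 ≤ MF c N φ z x := fun z x => ((MF_Pos hN hφ z).pos x).le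
  have hH := fun k => GB.HH (m := m) (c := c) (φ := φ) h hN hc hφ hs hsr k
  have hd := fun j => ge_dvQ (m := m) h hN hs hQ j
  have gB : GE fun (z : Fin m → ℝ) (x : Fin n → ℝ) =>
      MF c N φ z x * ∑ j, dvQ μ s N Q j x * HH μ s r c N φ j z x :=
    (GE.of_gb hM).mul (GE.sum _ fun j _ => (hd j).mul (GE.of_gb (hH j)))
  rw [← EE_negE h gB]
  have e : (fun (z : Fin m → ℝ) (x : Fin n → ℝ) =>
      -(MF c N φ z x * ∑ j, dvQ μ s N Q j x * HH μ s r c N φ j z x))
      = fun z x => MF c N φ z x * ∑ j, (-dvQ μ s N Q j x) * HH μ s r c N φ j z x := by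
    funext z x
    rw [← mul_neg, ← Finset.sum_neg_distrib]
    congr 1
    exact Finset.sum_congr rfl fun j _ => by ring
  rw [e]
  refine (EE_cs_sumE h Finset.univ (GE.of_gb hM) hM0 (F := fun j _ x => -dvQ μ s N Q j x)
    (fun j _ => (hd j).neg) (fun j _ => GE.of_gb (hH j))).trans ?_
  refine mul_le_mul (le_of_eq ?_) (sqrt_le_sqrt (HH_le h hN hc hφ hs hsr)) (sqrt_nonneg _)
    (sqrt_nonneg _)
  congr 1
  have hgx : GE fun (_ : Fin m → ℝ) (x : Fin n → ℝ) => N x * ∑ j, dvQ μ s N Q j x ^ 2 :=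
    (GE.of_gb (GB.of_sb hN.sb)).mul (GE.sum _ fun j _ => (hd j).sq)
  have hmeas : Measurable fun x : Fin n → ℝ => N x * ∑ j, dvQ μ s N Q j x ^ 2 :=
    hgx.meas.comp (measurable_const.prodMk measurable_id : Measurable fun x : Fin n → ℝ =>
      ((0 : Fin m → ℝ), x))
  refine GE.ee_avg h ((GE.of_gb hM).mul (GE.sum _ fun j _ => (hd j).neg.sq)) hmeas
    (hgx.eg1 0) fun x => ?_
  have e2 : ∀ z : Fin m → ℝ, MF c N φ z x * ∑ j, (-dvQ μ s N Q j x) ^ 2
      = lk c φ z x * (N x * ∑ j, dvQ μ s N Q j x ^ 2) := by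
    intro z
    unfold MF
    have : ∑ j, (-dvQ μ s N Q j x) ^ 2 = ∑ j, dvQ μ s N Q j x ^ 2 :=
      Finset.sum_congr rfl fun j _ => by ring
    rw [this]; ring
  simp_rw [e2]
  rw [integral_mul_const, az_one hc, one_mul]

theorem JT_adj (h : CSupp μ R) (hN : Pos N) (hc : 0 ≤ c) (hφ : ∀ a, SB (φ a)) (hs : 0 < s)
    (hsr : s ≤ r) :
    JT μ s r c N φ = EE m μ s (fun z x => MF c N φ z x
      * ∑ j, PH (r - s) (fun y => ht μ s r c N φ j z y ^ 2) x) := by
  have hM := GB.mf hN.sb hc hφ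
  have hh := fun k => GB.ht (m := m) (c := c) (φ := φ) h hN hc hφ hs hsr k
  have hS : GB fun (z : Fin m → ℝ) (y : Fin n → ℝ) => ∑ k, ht μ s r c N φ k z y ^ 2 :=
    GB.sum Finset.univ fun k _ => (hh k).sq
  unfold JT
  rw [EE_adj (μ := μ) h hs hsr hM hS]
  congr 1
  funext z x
  congr 1
  unfold PH
  refine integral_finsetSum _ fun k _ => ?_
  obtain ⟨C, hC⟩ := ((hh k).bm z).2
  refine Integrable.of_bound ((((hh k).bm z).1.comp (by fun_prop)).pow_const 2).aestronglyMeasurable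
    (C ^ 2) (Eventually.of_forall fun w => ?_)
  rw [norm_eq_abs, abs_of_nonneg (sq_nonneg _), ← sq_abs]
  exact pow_le_pow_left₀ (abs_nonneg _) (hC _) 2

theorem B2_le (h : CSupp μ R) (hN : Pos N) (hc : 0 ≤ c) (hφ : ∀ a, SB (φ a)) (hs : 0 < s)
    (hsr : s < r) (hQ : ∀ j k, SB (Q j k)) :
    -EE m μ s (fun z x => MF c N φ z x * ∑ j, ∑ k, Q j k x * pd (HH μ s r c N φ j z) k x)
      ≤ √(EY μ s (fun x => N x * ∑ j, ∑ k, Q j k x ^ 2) / (r - s)) * √(JT μ s r c N φ) := by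
  have hM := GB.mf hN.sb hc hφ
  have hM0 : ∀ z x, 0 ≤ MF c N φ z x := fun z x => ((MF_Pos hN hφ z).pos x).le
  have hh := fun k => GB.ht (m := m) (c := c) (φ := φ) h hN hc hφ hs hsr.le k
  have hpH := fun j k => GB.pdHH (m := m) (c := c) (φ := φ) h hN hc hφ hs hsr j k
  have ht0 : 0 < r - s := by linarith
  have hst : 0 < √(r - s) := sqrt_pos.2 ht0
  have gP : GB fun (z : Fin m → ℝ) (x : Fin n → ℝ) =>
      ∑ j, PH (r - s) (fun y => ht μ s r c N φ j z y ^ 2) x :=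
    GB.sum _ fun j _ => (hh j).sq.ph (r - s)
  have gC : GB fun (z : Fin m → ℝ) (x : Fin n → ℝ) =>
      ∑ j, ∑ k, Q j k x * pd (HH μ s r c N φ j z) k x :=
    GB.sum _ fun j _ => GB.sum _ fun k _ => (GB.of_sb (hQ j k)).mul (hpH j k)
  have gQ : GB fun (_ : Fin m → ℝ) (x : Fin n → ℝ) => ∑ j, ∑ k, Q j k x ^ 2 :=
    GB.sum _ fun j _ => GB.sum _ fun k _ => (GB.of_sb (hQ j k)).sq
  set B := EE m μ s (fun z x => MF c N φ z x * ∑ j, ∑ k, Q j k x * pd (HH μ s r c N φ j z) k x)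
    with hB
  set q := EY μ s (fun x => N x * ∑ j, ∑ k, Q j k x ^ 2) with hqdef
  have hqe : EE m μ s (fun z x => MF c N φ z x * ∑ j, ∑ k, Q j k x ^ 2) = q := by
    have hsb : SB fun x => N x * ∑ j, ∑ k, Q j k x ^ 2 :=
      hN.sb.mul (SB.sum _ fun j _ => SB.sum _ fun k _ => (hQ j k).pow 2)
    refine GE.ee_avg h (GE.of_gb (hM.mul gQ)) hsb.measurable (eg1_bm (SB.bm hsb)) fun x => ?_
    have e2 : ∀ z : Fin m → ℝ, MF c N φ z x * ∑ j, ∑ k, Q j k x ^ 2
        = lk c φ z x * (N x * ∑ j, ∑ k, Q j k x ^ 2) := by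
      intro z
      unfold MF
      ring
    simp_rw [e2]
    rw [integral_mul_const, az_one hc, one_mul]
  have key : ∀ a : ℝ, 0 ≤ JT μ s r c N φ * (a * a) + (-2 * (-(√(r - s) * B))) * a + q := by
    intro a
    have h0 : 0 ≤ EE m μ s (fun z x => MF c N φ z x *
        ((a ^ 2 * ∑ j, PH (r - s) (fun y => ht μ s r c N φ j z y ^ 2) x
          + (2 * a * √(r - s)) * ∑ j, ∑ k, Q j k x * pd (HH μ s r c N φ j z) k x)
          + ∑ j, ∑ k, Q j k x ^ 2)) := by
      refine EE_nonneg (hM.mul (((gP.const_mul _).add (gC.const_mul _)).add gQ)) fun z x => ?_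
      refine mul_nonneg (hM0 z x) ?_
      have h1 : ∀ j, 0 ≤ a ^ 2 * PH (r - s) (fun y => ht μ s r c N φ j z y ^ 2) x
          + 2 * a * (√(r - s) * ∑ k, Q j k x * pd (HH μ s r c N φ j z) k x)
          + ∑ k, Q j k x ^ 2 := fun j =>
        quad_pt (ht_sb h hN hφ hs hsr.le j z) ht0 x (fun k => Q j k x) a
      have h2 := Finset.sum_nonneg fun j (_ : j ∈ Finset.univ) => h1 j
      rw [Finset.sum_add_distrib, Finset.sum_add_distrib] at h2
      have e1 : ∑ j, a ^ 2 * PH (r - s) (fun y => ht μ s r c N φ j z y ^ 2) x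
          = a ^ 2 * ∑ j, PH (r - s) (fun y => ht μ s r c N φ j z y ^ 2) x := by
        rw [Finset.mul_sum]
      have e2 : ∑ j, 2 * a * (√(r - s) * ∑ k, Q j k x * pd (HH μ s r c N φ j z) k x)
          = (2 * a * √(r - s)) * ∑ j, ∑ k, Q j k x * pd (HH μ s r c N φ j z) k x := by
        rw [Finset.mul_sum]
        exact Finset.sum_congr rfl fun j _ => by ring
      rw [e1, e2] at h2
      exact h2
    have e : (fun (z : Fin m → ℝ) (x : Fin n → ℝ) => MF c N φ z x *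
        ((a ^ 2 * ∑ j, PH (r - s) (fun y => ht μ s r c N φ j z y ^ 2) x
          + (2 * a * √(r - s)) * ∑ j, ∑ k, Q j k x * pd (HH μ s r c N φ j z) k x)
          + ∑ j, ∑ k, Q j k x ^ 2))
        = fun z x => (a ^ 2 * (MF c N φ z x *
          ∑ j, PH (r - s) (fun y => ht μ s r c N φ j z y ^ 2) x)
          + (2 * a * √(r - s)) * (MF c N φ z x *
            ∑ j, ∑ k, Q j k x * pd (HH μ s r c N φ j z) k x))
          + MF c N φ z x * ∑ j, ∑ k, Q j k x ^ 2 := by
      funext z x; ring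
    rw [e, EE_add (((hM.mul gP).const_mul _).add ((hM.mul gC).const_mul _)) (hM.mul gQ),
      EE_add ((hM.mul gP).const_mul _) ((hM.mul gC).const_mul _),
      EE_const_mul _ (hM.mul gP), EE_const_mul _ (hM.mul gC), hqe,
      ← JT_adj h hN hc hφ hs hsr.le, ← hB] at h0
    linarith
  have h3 := le_sqrt_mul_of_quad (JT_nonneg h hN hc hφ hs hsr.le) key
  rw [sqrt_div' _ ht0.le, div_mul_eq_mul_div, le_div_iff₀ hst]
  linarith

end main

end Vale.Agent.P245.H807
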