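import Mathlib
import Vale.Agent.P245.H807.LU5
import Vale.Agent.P245.H888.Ker

/-! # P245, Lemma U (helper807): the upper display -/

set_option linter.all false

open MeasureTheory Real Set Filter Topology
open scoped ENNReal ContDiff

namespace Vale.Agent.P245.H807

open Vale.Agent.P245 Vale.Agent.P245.LS Vale.Agent.P245.E1 Vale.Agent.P245.LS.Down

variable {n m : ℕ}

section main

variable {μ : Measure (Fin n → ℝ)} [IsProbabilityMeasure μ] {R : ℝ}
  {c s r : ℝ} {N : (Fin n → ℝ) → ℝ} {φ : Fin m → (Fin n → ℝ) → ℝ}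
  {Q : Fin n → Fin n → (Fin n → ℝ) → ℝ}

/-- upper display with the mismatch term left as it is -/
theorem upper0 (h : CSupp μ R) (hN : Pos N) (hc : 0 ≤ c) (hφ : ∀ a, SB (φ a)) (hs : 0 < s)
    (hsr : s < r) (hQ : ∀ j k, SB (Q j k)) :
    √(JT μ s r c N φ)
      ≤ √(c * EY μ s (fun x => N x * ∑ a, ∑ j, (pd (φ a) j x - ∑ k, Q j k x * pd (φ a) k x) ^ 2))
        + √(EY μ s (fun x => N x * ∑ j, ∑ k, Q j k x ^ 2) / (r - s))
        + √(EY μ s (fun x => N x * ∑ j, dvQ μ s N Q j x ^ 2))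
        + √(FI μ s N)
        + √(EE m μ r fun z y => UL μ s r (MF c N φ z) y
            * ∑ k, mm μ s r (MF c N φ z) k y ^ 2) := by
  have hM := GB.mf hN.sb hc hφ
  have hM0 : ∀ z x, 0 ≤ MF c N φ z x := fun z x => ((MF_Pos hN hφ z).pos x).le
  have hU := GB.ul (μ := μ) h hs hsr.le hM
  have hU0 : ∀ (z : Fin m → ℝ) (y : Fin n → ℝ), 0 ≤ UL μ s r (MF c N φ z) y :=
    fun z y => ((UL_Pos h hs hsr.le (MF_Pos hN hφ z)).pos y).le
  have hh := fun k => GB.ht (m := m) (c := c) (φ := φ) h hN hc hφ hs hsr.le k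
  have hH := fun k => GB.HH (m := m) (c := c) (φ := φ) h hN hc hφ hs hsr.le k
  have hmm := fun k => GB.mm (m := m) (c := c) (φ := φ) h hN hc hφ hs hsr.le k
  have hq : ∀ k, SB (sN N k) := fun k => hN.div (hN.sb.pd k)
  have hh0 := fun k => GB.h0 (c := c) hφ k
  have hJ := JT_nonneg (c := c) (φ := φ) h hN hc hφ hs hsr.le
  have e0 := JT_eq (c := c) (φ := φ) h hN hc hφ hs hsr.le
  -- split the first term
  have gA1 : GB fun (z : Fin m → ℝ) (x : Fin n → ℝ) =>
      MF c N φ z x * ∑ j, (h0 c φ j z x - ∑ k, Q j k x * h0 c φ k z x)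
        * HH μ s r c N φ j z x :=
    hM.mul (GB.sum _ fun j _ => ((hh0 j).sub (GB.sum _ fun k _ =>
      (GB.of_sb (hQ j k)).mul (hh0 k))).mul (hH j))
  have gA2 : GB fun (z : Fin m → ℝ) (x : Fin n → ℝ) =>
      MF c N φ z x * ∑ j, (∑ k, Q j k x * h0 c φ k z x) * HH μ s r c N φ j z x :=
    hM.mul (GB.sum _ fun j _ => (GB.sum _ fun k _ =>
      (GB.of_sb (hQ j k)).mul (hh0 k)).mul (hH j))
  have eA : EE m μ s (fun z x => MF c N φ z x * ∑ k, h0 c φ k z x * HH μ s r c N φ k z x)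
      = EE m μ s (fun z x => MF c N φ z x * ∑ j, (h0 c φ j z x - ∑ k, Q j k x * h0 c φ k z x)
        * HH μ s r c N φ j z x)
        + EE m μ s (fun z x => MF c N φ z x * ∑ j, (∑ k, Q j k x * h0 c φ k z x)
        * HH μ s r c N φ j z x) := by
    rw [← EE_add gA1 gA2]
    congr 1
    funext z x
    rw [← mul_add, ← Finset.sum_add_distrib]
    congr 1
    exact Finset.sum_congr rfl fun j _ => by ring
  have i1 := A1_le (c := c) (φ := φ) h hN hc hφ hs hsr.le hQ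
  have i2 := A2_eq (c := c) (φ := φ) h hN hc hφ hs hsr hQ
  have i3 := B1_le (c := c) (φ := φ) h hN hc hφ hs hsr.le hQ
  have i4 := B2_le (c := c) (φ := φ) h hN hc hφ hs hsr hQ
  -- the score term
  have i5 : EE m μ s (fun z x => MF c N φ z x * ∑ k, sN N k x * HH μ s r c N φ k z x)
      ≤ √(FI μ s N) * √(JT μ s r c N φ) := by
    refine (EE_cs_sum Finset.univ hM hM0 (F := fun k _ x => sN N k x)
      (fun k _ => GB.of_sb (hq k)) (fun k _ => hH k)).trans ?_
    refine mul_le_mul (le_of_eq ?_) (sqrt_le_sqrt (HH_le h hN hc hφ hs hsr.le)) (sqrt_nonneg _)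
      (sqrt_nonneg _)
    congr 1
    have hsb : SB fun x => N x * ∑ k, sN N k x ^ 2 :=
      hN.sb.mul (SB.sum _ fun k _ => (hq k).pow 2)
    have e1 : FI μ s N = EY μ s fun x => N x * ∑ k, sN N k x ^ 2 := by
      unfold FI
      congr 1
      funext x
      have := (hN.pos x).ne'
      unfold sN
      rw [Finset.sum_div, Finset.mul_sum]
      exact Finset.sum_congr rfl fun k _ => by field_simp
    rw [e1]
    refine GE.ee_avg h (GE.of_gb (hM.mul (GB.sum _ fun k _ => (GB.of_sb (hq k)).sq)))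
      hsb.measurable (eg1_bm (SB.bm hsb)) fun x => ?_
    have e2 : ∀ z : Fin m → ℝ, MF c N φ z x * ∑ k, sN N k x ^ 2
        = lk c φ z x * (N x * ∑ k, sN N k x ^ 2) := by
      intro z
      unfold MF
      ring
    simp_rw [e2]
    rw [integral_mul_const, az_one hc, one_mul]
  -- the mismatch term
  have i6 : -EE m μ r (fun z y => UL μ s r (MF c N φ z) y
          * ∑ k, ht μ s r c N φ k z y * mm μ s r (MF c N φ z) k y)
      ≤ √(EE m μ r fun z y => UL μ s r (MF c N φ z) y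
            * ∑ k, mm μ s r (MF c N φ z) k y ^ 2) * √(JT μ s r c N φ) := by
    have gC : GB fun (z : Fin m → ℝ) (y : Fin n → ℝ) => UL μ s r (MF c N φ z) y
          * ∑ k, ht μ s r c N φ k z y * mm μ s r (MF c N φ z) k y :=
      hU.mul (GB.sum _ fun k _ => (hh k).mul (hmm k))
    rw [← EE_neg gC]
    have e : (fun (z : Fin m → ℝ) (y : Fin n → ℝ) => -(UL μ s r (MF c N φ z) y
          * ∑ k, ht μ s r c N φ k z y * mm μ s r (MF c N φ z) k y))
        = fun z y => UL μ s r (MF c N φ z) y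
          * ∑ k, (-mm μ s r (MF c N φ z) k y) * ht μ s r c N φ k z y := by
      funext z y
      rw [← mul_neg, ← Finset.sum_neg_distrib]
      congr 1
      exact Finset.sum_congr rfl fun k _ => by ring
    rw [e]
    refine (EE_cs_sum Finset.univ hU hU0 (F := fun k z y => -mm μ s r (MF c N φ z) k y)
      (fun k _ => (hmm k).neg) (fun k _ => hh k)).trans (le_of_eq ?_)
    congr 2
    congr 1
    funext z y
    congr 1
    exact Finset.sum_congr rfl fun k _ => by ring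
  -- conclusion
  set J := JT μ s r c N φ with hJdef
  rcases hJ.eq_or_lt with h0 | h0
  · rw [← h0, sqrt_zero]
    positivity
  have hsJ : 0 < √J := sqrt_pos.2 h0
  have hJJ : √J * √J = J := mul_self_sqrt hJ
  have key : √J * √J ≤ (√(c * EY μ s (fun x => N x * ∑ a, ∑ j,
        (pd (φ a) j x - ∑ k, Q j k x * pd (φ a) k x) ^ 2))
        + √(EY μ s (fun x => N x * ∑ j, ∑ k, Q j k x ^ 2) / (r - s))
        + √(EY μ s (fun x => N x * ∑ j, dvQ μ s N Q j x ^ 2))
        + √(FI μ s N)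
        + √(EE m μ r fun z y => UL μ s r (MF c N φ z) y
            * ∑ k, mm μ s r (MF c N φ z) k y ^ 2)) * √J := by
    rw [hJJ]
    rw [eA, i2] at e0
    nlinarith [i1, i3, i4, i5, i6, e0]
  exact le_of_mul_le_mul_right key hsJ

/-- average of the Fisher information of the joint densities -/
theorem avg_FI (h : CSupp μ R) (hN : Pos N) (hc : 0 ≤ c) (hφ : ∀ a, SB (φ a)) :
    Integrable (fun z => FI μ s (MF c N φ z)) (gsn m) ∧
    ∫ z, FI μ s (MF c N φ z) ∂(gsn m)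
      = FI μ s N + c * EY μ s (fun x => N x * ∑ a, ∑ j, pd (φ a) j x ^ 2) := by
  have hM := GB.mf hN.sb hc hφ
  have hq : ∀ k, SB (sN N k) := fun k => hN.div (hN.sb.pd k)
  have hh0 := fun k => GB.h0 (c := c) hφ k
  have gF : GB fun (z : Fin m → ℝ) (x : Fin n → ℝ) =>
      MF c N φ z x * ∑ k, (sN N k x + h0 c φ k z x) ^ 2 :=
    hM.mul (GB.sum _ fun k _ => ((GB.of_sb (hq k)).add (hh0 k)).sq)
  have e0 : ∀ z, FI μ s (MF c N φ z) = EY μ s (fun x => MF c N φ z x *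
      ∑ k, (sN N k x + h0 c φ k z x) ^ 2) := by
    intro z
    unfold FI
    congr 1
    funext x
    have := ((MF_Pos (c := c) hN hφ z).pos x).ne'
    simp_rw [pd_MF hN hc hφ]
    rw [Finset.sum_div, Finset.mul_sum]
    exact Finset.sum_congr rfl fun k _ => by field_simp
  simp_rw [e0]
  refine ⟨gF.int_EY, ?_⟩
  have hsb1 : SB fun x => N x * ∑ k, sN N k x ^ 2 :=
    hN.sb.mul (SB.sum _ fun k _ => (hq k).pow 2)
  have hsb2 : SB fun x => c * (N x * ∑ a, ∑ j, pd (φ a) j x ^ 2) :=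
    (hN.sb.mul (SB.sum _ fun a _ => SB.sum _ fun j _ => ((hφ a).pd j).pow 2)).const_mul c
  have e1 : FI μ s N = EY μ s fun x => N x * ∑ k, sN N k x ^ 2 := by
    unfold FI
    congr 1
    funext x
    have := (hN.pos x).ne'
    unfold sN
    rw [Finset.sum_div, Finset.mul_sum]
    exact Finset.sum_congr rfl fun k _ => by field_simp
  rw [e1, ← EY_const_mul]
  have hadd : EY μ s (fun x => N x * ∑ k, sN N k x ^ 2 + c * (N x * ∑ a, ∑ j, pd (φ a) j x ^ 2))
      = EY μ s (fun x => N x * ∑ k, sN N k x ^ 2)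
        + EY μ s (fun x => c * (N x * ∑ a, ∑ j, pd (φ a) j x ^ 2)) :=
    EY_add' h hsb1.continuous (eg1_bm (SB.bm hsb1)) hsb2.continuous (eg1_bm (SB.bm hsb2)) s
  rw [← hadd]
  have hsb3 : SB fun x => N x * ∑ k, sN N k x ^ 2
      + c * (N x * ∑ a, ∑ j, pd (φ a) j x ^ 2) := hsb1.add hsb2
  refine GE.ee_avg h (GE.of_gb gF) hsb3.measurable (eg1_bm (SB.bm hsb3)) fun x => ?_
  have hi1 : ∀ k, Integrable (fun z : Fin m → ℝ => lk c φ z x * (0 + √c * ∑ a,
      (z a - √c * φ a x) * pd (φ a) k x)) (gsn m) := by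
    intro k
    have h1 : GB fun (z : Fin m → ℝ) (x : Fin n → ℝ) => lk c φ z x * (0 + √c * ∑ a,
      (z a - √c * φ a x) * pd (φ a) k x) :=
      (GB.lk hc hφ).mul ((GB.const 0).add (hh0 k))
    exact h1.int_z x
  have hi2 : ∀ k, Integrable (fun z : Fin m → ℝ => lk c φ z x * (√c * ∑ a,
      (z a - √c * φ a x) * pd (φ a) k x) ^ 2) (gsn m) := by
    intro k
    have h1 : GB fun (z : Fin m → ℝ) (x : Fin n → ℝ) => lk c φ z x * (√c * ∑ a,
      (z a - √c * φ a x) * pd (φ a) k x) ^ 2 :=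
      (GB.lk hc hφ).mul (hh0 k).sq
    exact h1.int_z x
  have hi0 : Integrable (fun z : Fin m → ℝ => lk c φ z x) (gsn m) := (GB.lk hc hφ).int_z x
  have e : ∀ z : Fin m → ℝ, MF c N φ z x * ∑ k, (sN N k x + h0 c φ k z x) ^ 2
      = N x * ∑ k, (sN N k x ^ 2 * lk c φ z x + (2 * sN N k x) * (lk c φ z x * (0 + √c * ∑ a,
        (z a - √c * φ a x) * pd (φ a) k x)) + lk c φ z x * (√c * ∑ a,
        (z a - √c * φ a x) * pd (φ a) k x) ^ 2) := by
    intro z
    unfold MF h0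
    rw [mul_assoc, Finset.mul_sum]
    congr 1
    refine Finset.sum_congr rfl fun k _ => ?_
    ring
  simp_rw [e]
  have hi3 : ∀ k, Integrable (fun z : Fin m → ℝ => sN N k x ^ 2 * lk c φ z x
      + (2 * sN N k x) * (lk c φ z x * (0 + √c * ∑ a,
        (z a - √c * φ a x) * pd (φ a) k x))) (gsn m) := fun k =>
    (hi0.const_mul _).add ((hi1 k).const_mul _)
  have hi4 : ∀ k, Integrable (fun z : Fin m → ℝ => sN N k x ^ 2 * lk c φ z x
      + (2 * sN N k x) * (lk c φ z x * (0 + √c * ∑ a,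
        (z a - √c * φ a x) * pd (φ a) k x)) + lk c φ z x * (√c * ∑ a,
        (z a - √c * φ a x) * pd (φ a) k x) ^ 2) (gsn m) := fun k => (hi3 k).add (hi2 k)
  rw [integral_const_mul, integral_finsetSum _ fun k _ => hi4 k]
  have e3 : ∀ k, ∫ z : Fin m → ℝ, (sN N k x ^ 2 * lk c φ z x
      + (2 * sN N k x) * (lk c φ z x * (0 + √c * ∑ a,
        (z a - √c * φ a x) * pd (φ a) k x)) + lk c φ z x * (√c * ∑ a,
        (z a - √c * φ a x) * pd (φ a) k x) ^ 2) ∂(gsn m)
      = sN N k x ^ 2 + c * ∑ a, pd (φ a) k x ^ 2 := by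
    intro k
    rw [integral_add (hi3 k) (hi2 k), integral_add (hi0.const_mul _) ((hi1 k).const_mul _),
      integral_const_mul, integral_const_mul, az_one hc, az_aff hc, az_sq hc]
    ring
  simp_rw [e3]
  rw [Finset.sum_add_distrib, mul_add, ← Finset.mul_sum, Finset.sum_comm]
  ring

end main

section lc

variable {ρ : (Fin n → ℝ) → ℝ} [IsProbabilityMeasure (mu ρ)] {R : ℝ}
  {c s r : ℝ} {N : (Fin n → ℝ) → ℝ} {φ : Fin m → (Fin n → ℝ) → ℝ}
  {Q : Fin n → Fin n → (Fin n → ℝ) → ℝ}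

/-- the mismatch term -/
theorem mm_le (hρ : LCd ρ) (h : CSupp (mu ρ) R) (hN : Pos N) (hc : 0 ≤ c)
    (hφ : ∀ a, SB (φ a)) (hs : 0 < s) (hsr : s ≤ r) :
    EE m (mu ρ) r (fun z y => UL (mu ρ) s r (MF c N φ z) y
        * ∑ k, mm (mu ρ) s r (MF c N φ z) k y ^ 2)
      ≤ (r - s) / s * (FI (mu ρ) s N
        + c * EY (mu ρ) s (fun x => N x * ∑ a, ∑ j, pd (φ a) j x ^ 2)) := by
  have hM := GB.mf hN.sb hc hφ
  have hU := GB.ul (μ := mu ρ) h hs hsr hM
  have hmm := fun k => GB.mm (m := m) (c := c) (φ := φ) h hN hc hφ hs hsr k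
  obtain ⟨iF, eF⟩ := avg_FI (m := m) (c := c) (s := s) (φ := φ) h hN hc hφ
  rw [← eF, ← integral_const_mul]
  have hG : GB fun (z : Fin m → ℝ) (y : Fin n → ℝ) => UL (mu ρ) s r (MF c N φ z) y
        * ∑ k, mm (mu ρ) s r (MF c N φ z) k y ^ 2 :=
    hU.mul (GB.sum _ fun k _ => (hmm k).sq)
  refine integral_mono hG.int_EY (iF.const_mul _) fun z => ?_
  have h1 := H888.ker_mm hρ h (MF_Pos (c := c) hN hφ z) hs hsr
  have h2 : 0 ≤ FI (mu ρ) r (UL (mu ρ) s r (MF c N φ z)) := by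
    have hP := UL_Pos (μ := mu ρ) h hs hsr (MF_Pos (c := c) hN hφ z)
    exact ((thCo n (mu ρ) r _ hP).1.1).symm ▸
      ((thCo n (mu ρ) r _ hP).2.1 _ _ (fun i => hP.div (hP.sb.pd i))
        (fun i => hP.div (hP.sb.pd i))).1
  have h3 : 0 ≤ (r - s) * FI (mu ρ) r (UL (mu ρ) s r (MF c N φ z)) :=
    mul_nonneg (by linarith) h2
  have e : IP (mu ρ) r (UL (mu ρ) s r (MF c N φ z)) (mm (mu ρ) s r (MF c N φ z))
      (mm (mu ρ) s r (MF c N φ z)) = EY (mu ρ) r (fun y => UL (mu ρ) s r (MF c N φ z) y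
        * ∑ k, mm (mu ρ) s r (MF c N φ z) k y ^ 2) := by
    unfold IP
    congr 1
    funext y
    congr 1
    exact Finset.sum_congr rfl fun k _ => by ring
  rw [e] at h1
  simp only
  rw [div_mul_eq_mul_div, le_div_iff₀ hs]
  linarith

/-- **Lemma U, upper half.** -/
theorem upper (hρ : LCd ρ) (h : CSupp (mu ρ) R) (hN : Pos N) (hc : 0 ≤ c)
    (hφ : ∀ a, SB (φ a)) (hs : 0 < s) (hsr : s < r) (hQ : ∀ j k, SB (Q j k)) :
    √(JT (mu ρ) s r c N φ)
      ≤ √(c * EY (mu ρ) s (fun x => N x * ∑ a, ∑ j,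
            (pd (φ a) j x - ∑ k, Q j k x * pd (φ a) k x) ^ 2))
        + √(EY (mu ρ) s (fun x => N x * ∑ j, ∑ k, Q j k x ^ 2) / (r - s))
        + √(EY (mu ρ) s (fun x => N x * ∑ j, dvQ (mu ρ) s N Q j x ^ 2))
        + √(FI (mu ρ) s N)
        + √((r - s) / s * (FI (mu ρ) s N
            + c * EY (mu ρ) s (fun x => N x * ∑ a, ∑ j, pd (φ a) j x ^ 2))) := by
  refine (upper0 h hN hc hφ hs hsr hQ).trans ?_
  have := sqrt_le_sqrt (mm_le (m := m) (c := c) (φ := φ) hρ h hN hc hφ hs hsr.le)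
  linarith

end lc

end Vale.Agent.P245.H807
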